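import Mathlib

set_option autoImplicit false
open MeasureTheory Set Filter Topology Real

namespace Crest.Agent.S0423

/-- the kernel `(t-y) e^{-(t-y)}` on `y < t`, `t = 4/3` -/
noncomputable def kf (y : ℝ) : ℝ := if y < 4/3 then (4/3 - y) * exp (-(4/3 - y)) else 0

/-- Heaviside -/
noncomputable def Hv (y : ℝ) : ℝ := if 0 ≤ y then 1 else 0

/-- cdf of `β/κ - X/κ` -/
noncomputable def Fk (β κ y : ℝ) : ℝ := min 1 (exp (κ * y - β))

lemma kf_nonneg (y : ℝ) : 0 ≤ kf y := by
  unfold kf; split_ifs with h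
  · have : 0 ≤ 4/3 - y := by linarith
    positivity
  · exact le_rfl

lemma wexp_anti {a b : ℝ} (ha : 1 ≤ a) (hab : a ≤ b) : b * exp (-b) ≤ a * exp (-a) := by
  have h1 : b ≤ a * exp (b - a) := by
    have h2 := Real.add_one_le_exp (b - a)
    nlinarith
  have h3 : exp (-a) = exp (b - a) * exp (-b) := by rw [← exp_add]; ring_nf
  rw [h3]
  have := exp_pos (-b)
  nlinarith

lemma wexp_mono {a b : ℝ} (ha : 0 ≤ a) (hab : a ≤ b) (hb : b ≤ 1) : a * exp (-a) ≤ b * exp (-b) := by
  have h2 := Real.add_one_le_exp (-(b - a))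
  have h1 : a ≤ b * exp (-(b - a)) := by nlinarith
  have h3 : exp (-b) = exp (-(b - a)) * exp (-a) := by rw [← exp_add]; ring_nf
  rw [h3]
  have := exp_pos (-a)
  nlinarith

lemma kf_mono {x y : ℝ} (hxy : x ≤ y) (hy : y ≤ 1/3) : kf x ≤ kf y := by
  unfold kf
  rw [if_pos (by linarith), if_pos (by linarith)]
  exact wexp_anti (by linarith) (by linarith)

lemma kf_anti {x y : ℝ} (hxy : x ≤ y) (hx : 1/3 ≤ x) : kf y ≤ kf x := by
  by_cases h : y < 4/3
  · unfold kf
    rw [if_pos (by linarith), if_pos (by linarith)]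
    exact wexp_mono (by linarith) (by linarith) (by linarith)
  · have : kf y = 0 := by unfold kf; rw [if_neg h]
    rw [this]; exact kf_nonneg x

lemma kf_measurable : Measurable kf := by
  unfold kf
  exact Measurable.ite measurableSet_Iio (by fun_prop) measurable_const

/-- integrability of `w e^{-w}` on `(0,∞)` -/
lemma integrable_wexp : IntegrableOn (fun w : ℝ => w * exp (-w)) (Ioi 0) := by
  have := Real.GammaIntegral_convergent (s := 2) (by norm_num)
  refine this.congr_fun ?_ measurableSet_Ioi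
  intro x hx
  simp only [mem_Ioi] at hx
  simp only
  norm_num
  ring

lemma kf_integrable : Integrable kf := by
  have h1 : Integrable ((Ioi (0:ℝ)).indicator (fun w : ℝ => w * exp (-w))) :=
    integrable_wexp.integrable_indicator measurableSet_Ioi
  have h2 := h1.comp_sub_left (4/3)
  refine h2.congr (Eventually.of_forall ?_)
  intro y
  simp only [indicator, mem_Ioi, kf, sub_pos]

lemma integral_kf_mul (F : ℝ → ℝ) : ∫ y, kf y * F y = ∫ w in Ioi (0:ℝ), w * exp (-w) * F (4/3 - w) := by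
  rw [← integral_indicator measurableSet_Ioi, ← integral_sub_left_eq_self _ volume (4/3 : ℝ)]
  congr 1
  ext w
  simp only [indicator, mem_Ioi, kf]
  by_cases h : 0 < w
  · rw [if_pos (by linarith), if_pos h]; ring_nf
  · rw [if_neg (by linarith), if_neg h]; ring

/-- the pair of points at distance `θ` with the same kernel value -/
noncomputable def w1 (θ : ℝ) : ℝ := θ / (exp θ - 1)

lemma w1_pos {θ : ℝ} (h : 0 < θ) : 0 < w1 θ := by
  unfold w1
  have := Real.add_one_lt_exp h.ne'
  apply div_pos h; linarith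

lemma w1_lt_one {θ : ℝ} (h : 0 < θ) : w1 θ < 1 := by
  unfold w1
  have := Real.add_one_lt_exp h.ne'
  rw [div_lt_one (by linarith)]; linarith

lemma w1_eq {θ : ℝ} (h : 0 < θ) : (w1 θ + θ) * exp (-(w1 θ + θ)) = w1 θ * exp (-(w1 θ)) := by
  have h1 := Real.add_one_lt_exp h.ne'
  have h2 : w1 θ * (exp θ - 1) = θ := by
    unfold w1; exact div_mul_cancel₀ _ (by linarith)
  have h3 : exp (-(w1 θ)) = exp (-(w1 θ + θ)) * exp θ := by rw [← exp_add]; ring_nf
  rw [h3]
  have : w1 θ + θ = w1 θ * exp θ := by linarith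
  rw [this]; ring

lemma w2_gt_one {θ : ℝ} (h : 0 < θ) : 1 < w1 θ + θ := by
  have h1 := Real.add_one_lt_exp h.ne'
  have h4 := Real.add_one_lt_exp (neg_ne_zero.mpr h.ne')
  have h2 : w1 θ * (exp θ - 1) = θ := by
    unfold w1; exact div_mul_cancel₀ _ (by linarith)
  have h5 : exp θ * exp (-θ) = 1 := by rw [← exp_add]; simp
  have h6 : 1 > exp θ * (1 - θ) := by
    rw [← h5]
    have := exp_pos θ
    nlinarith
  by_contra hc
  push Not at hc
  have h7 : θ ≤ (1 - θ) * (exp θ - 1) := by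
    rw [← h2]
    have : w1 θ ≤ 1 - θ := by linarith
    nlinarith
  nlinarith

lemma kf_pair {θ : ℝ} (h : 0 < θ) : kf (4/3 - w1 θ - θ) = kf (4/3 - w1 θ) := by
  have h1 := w1_pos h
  unfold kf
  rw [if_pos (by linarith), if_pos (by linarith)]
  have := w1_eq h
  calc _ = (w1 θ + θ) * exp (-(w1 θ + θ)) := by ring_nf
    _ = _ := this
    _ = _ := by ring_nf

/-- sign structure -/
lemma kf_ge {θ y : ℝ} (h : 0 < θ) (h1 : 4/3 - w1 θ - θ ≤ y) (h2 : y ≤ 4/3 - w1 θ) :
    kf (4/3 - w1 θ) ≤ kf y := by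
  have h3 := w1_lt_one h
  have h4 := w2_gt_one h
  by_cases hy : y ≤ 1/3
  · rw [← kf_pair h]; exact kf_mono h1 hy
  · exact kf_anti h2 (by linarith)

lemma kf_le_left {θ y : ℝ} (h : 0 < θ) (h1 : y ≤ 4/3 - w1 θ - θ) :
    kf y ≤ kf (4/3 - w1 θ) := by
  have h4 := w2_gt_one h
  rw [← kf_pair h]; exact kf_mono h1 (by linarith)

lemma kf_le_right {θ y : ℝ} (h : 0 < θ) (h1 : 4/3 - w1 θ ≤ y) :
    kf y ≤ kf (4/3 - w1 θ) := by
  have h3 := w1_lt_one h
  exact kf_anti h1 (by linarith)

lemma Hv_measurable : Measurable Hv := Measurable.ite measurableSet_Ici measurable_const measurable_const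

lemma Fk_zero_sub (κ : ℝ) (hκ : 0 < κ) : (fun y => Fk 0 κ y - Hv y) = (Iio (0:ℝ)).indicator (fun y => exp (κ * y)) := by
  ext y
  simp only [Fk, Hv, indicator, mem_Iio, sub_zero]
  by_cases h : 0 ≤ y
  · rw [if_pos h, if_neg (not_lt.mpr h), min_eq_left, sub_self]
    exact Real.one_le_exp (by positivity)
  · rw [if_neg h, if_pos (not_le.mp h), min_eq_right, sub_zero]
    apply Real.exp_le_one_iff.mpr
    push Not at h
    nlinarith

lemma Fk_shift {β κ : ℝ} (hκ : 0 < κ) (y : ℝ) : Fk β κ y = Fk 0 κ (y - β/κ) := by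
  unfold Fk
  congr 2
  field_simp
  ring

lemma integrable_Fk_zero {κ : ℝ} (hκ : 0 < κ) : Integrable (fun y => Fk 0 κ y - Hv y) := by
  rw [Fk_zero_sub κ hκ]
  apply IntegrableOn.integrable_indicator _ measurableSet_Iio
  exact (integrableOn_exp_mul_Iic hκ 0).mono_set Iio_subset_Iic_self

lemma integral_Fk_zero {κ : ℝ} (hκ : 0 < κ) : ∫ y, (Fk 0 κ y - Hv y) = 1/κ := by
  rw [Fk_zero_sub κ hκ, integral_indicator measurableSet_Iio, ← integral_Iic_eq_integral_Iio, integral_exp_mul_Iic hκ 0]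
  simp

lemma Hv_shift_eq (c : ℝ) (hc : 0 ≤ c) : (fun y => Hv (y - c) - Hv y) = (Ico (0:ℝ) c).indicator (fun _ => (-1:ℝ)) := by
  ext y
  simp only [Hv, indicator, mem_Ico, sub_nonneg]
  by_cases h : 0 ≤ y <;> by_cases h' : c ≤ y
  · simp [h, h', not_lt.mpr h']
  · simp [h, h', not_le.mp h']
  · exfalso; exact h (hc.trans h')
  · simp [h, h']

lemma integrable_Hv_shift {c : ℝ} (hc : 0 ≤ c) : Integrable (fun y => Hv (y - c) - Hv y) := by
  rw [Hv_shift_eq c hc]
  apply IntegrableOn.integrable_indicator _ measurableSet_Ico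
  simp

lemma integral_Hv_shift {c : ℝ} (hc : 0 ≤ c) : ∫ y, (Hv (y - c) - Hv y) = -c := by
  rw [Hv_shift_eq c hc, integral_indicator measurableSet_Ico]
  simp [hc]

lemma Fk_sub_eq {β κ : ℝ} (hκ : 0 < κ) : (fun y => Fk β κ y - Hv y) =
    fun y => (fun z => Fk 0 κ z - Hv z) (y - β/κ) + (Hv (y - β/κ) - Hv y) := by
  ext y
  rw [Fk_shift hκ]; ring

lemma integrable_Fk {β κ : ℝ} (hβ : 0 ≤ β) (hκ : 0 < κ) : Integrable (fun y => Fk β κ y - Hv y) := by
  rw [Fk_sub_eq hκ]
  exact ((integrable_Fk_zero hκ).comp_sub_right (β/κ)).add (integrable_Hv_shift (by positivity))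

lemma integral_Fk {β κ : ℝ} (hβ : 0 ≤ β) (hκ : 0 < κ) : ∫ y, (Fk β κ y - Hv y) = (1 - β)/κ := by
  rw [Fk_sub_eq hκ, integral_add ((integrable_Fk_zero hκ).comp_sub_right (β/κ)) (integrable_Hv_shift (by positivity)),
    integral_sub_right_eq_self (fun z => Fk 0 κ z - Hv z) (β/κ), integral_Fk_zero hκ, integral_Hv_shift (by positivity)]
  ring

structure LC (F : ℝ → ℝ) : Prop where
  mono : Monotone F
  pos : ∀ y, 0 < F y
  le_one : ∀ y, F y ≤ 1
  lim : Tendsto F atTop (𝓝 1)
  chord : ∀ x y z, x ≤ y → y ≤ z → (z - y) * log (F x) + (y - x) * log (F z) ≤ (z - x) * log (F y)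
  int : Integrable (fun y => F y - Hv y)
  zero : ∫ y, (F y - Hv y) = 0

namespace LC

variable {F : ℝ → ℝ} (h : LC F)
include h

lemma Lmono {x y : ℝ} (hxy : x ≤ y) : log (F x) ≤ log (F y) :=
  Real.log_le_log (h.pos x) (h.mono hxy)

lemma Lnonpos (y : ℝ) : log (F y) ≤ 0 := Real.log_nonpos (h.pos y).le (h.le_one y)

lemma concave : ConcaveOn ℝ univ (fun y => log (F y)) := by
  refine ⟨convex_univ, ?_⟩
  intro x _ z _ a b ha hb hab
  simp only [smul_eq_mul]
  have key : ∀ x z : ℝ, ∀ a b : ℝ, 0 ≤ a → 0 ≤ b → a + b = 1 → x ≤ z →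
      a * log (F x) + b * log (F z) ≤ log (F (a * x + b * z)) := by
    intro x z a b ha hb hab hxz
    rcases hxz.eq_or_lt with rfl | hlt
    · have : a * x + b * x = x := by rw [← add_mul, hab, one_mul]
      rw [this, ← add_mul, hab, one_mul]
    · have hb' : b = 1 - a := by linarith
      subst hb'
      have := h.chord x (a * x + (1 - a) * z) z (by nlinarith) (by nlinarith)
      have h2 : (z - (a * x + (1-a) * z)) = (z - x) * a := by ring
      have h3 : (a * x + (1-a) * z) - x = (z - x) * (1 - a) := by ring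
      rw [h2, h3] at this
      have hpos : 0 < z - x := by linarith
      have h4 : (z - x) * (a * log (F x) + (1-a) * log (F z)) ≤ (z - x) * log (F (a * x + (1-a) * z)) := by
        linarith
      exact le_of_mul_le_mul_left h4 hpos
  rcases le_total x z with hxz | hxz
  · exact key x z a b ha hb hab hxz
  · have := key z x b a hb ha (by linarith) hxz
    rw [add_comm (b * z), add_comm (b * log (F z))] at this
    exact this

lemma Lcont : Continuous (fun y => log (F y)) := by
  rw [← continuousOn_univ]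
  exact h.concave.continuousOn isOpen_univ

/-- points far to the right have `L` close to `0` -/
lemma exists_gt {c : ℝ} (hc : c < 0) (y₀ : ℝ) : ∃ y, y₀ < y ∧ c < log (F y) := by
  have h1 : Tendsto (fun y => log (F y)) atTop (𝓝 (log 1)) :=
    (Real.continuousAt_log one_ne_zero).tendsto.comp h.lim
  rw [Real.log_one] at h1
  have h2 := h1.eventually (lt_mem_nhds hc)
  obtain ⟨y, hy1, hy2⟩ := (h2.and (eventually_gt_atTop y₀)).exists
  exact ⟨y, hy2, hy1⟩

lemma gruenbaum : -1 ≤ log (F 0) := by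
  by_contra hc
  push Not at hc
  set L : ℝ → ℝ := fun y => log (F y) with hL
  set S : Set ℝ := (fun h : ℝ => (L h - L 0) / h) '' Ioi 0 with hS
  have hbd : ∀ y < 0, ∀ s ∈ S, s ≤ (L 0 - L y) / (-y) := by
    rintro y hy s ⟨z, hz, rfl⟩
    simp only [mem_Ioi] at hz
    have := h.chord y 0 z hy.le hz.le
    simp only
    rw [div_le_div_iff₀ hz (by linarith)]
    simp only [hL]
    linarith
  have hne : S.Nonempty := ⟨_, 1, by simp, rfl⟩
  have hba : BddAbove S := ⟨_, hbd (-1) (by norm_num)⟩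
  set κ := sSup S with hκdef
  have h1 : ∀ y, 0 < y → L y ≤ L 0 + κ * y := by
    intro y hy
    have : (L y - L 0) / y ≤ κ := le_csSup hba ⟨y, hy, rfl⟩
    rw [div_le_iff₀ hy] at this
    linarith
  have h2 : ∀ y, y < 0 → L y ≤ L 0 + κ * y := by
    intro y hy
    have : κ ≤ (L 0 - L y) / (-y) := csSup_le hne (hbd y hy)
    rw [le_div_iff₀ (by linarith)] at this
    linarith
  have hκ : 0 < κ := by
    obtain ⟨y, hy1, hy2⟩ := h.exists_gt (c := L 0) (by simp only [hL]; linarith) 0
    have := h1 y hy1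
    have h3 : L 0 < L y := hy2
    by_contra hk
    push Not at hk
    nlinarith
  have h3 : ∀ y, F y ≤ Fk (-L 0) κ y := by
    intro y
    unfold Fk
    apply le_min (h.le_one y)
    rw [← Real.exp_log (h.pos y)]
    apply Real.exp_le_exp.mpr
    rcases lt_trichotomy y 0 with hy | hy | hy
    · have := h2 y hy; simp only [hL] at this ⊢; linarith
    · subst hy; simp [hL]
    · have := h1 y hy; simp only [hL] at this ⊢; linarith
  have h0 : 0 ≤ -L 0 := by simp only [hL]; linarith
  have h4 : ∫ y, (F y - Hv y) ≤ ∫ y, (Fk (-L 0) κ y - Hv y) := by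
    apply integral_mono h.int (integrable_Fk h0 hκ)
    intro y
    have := h3 y
    simp only
    linarith
  rw [h.zero, integral_Fk h0 hκ] at h4
  have h5 : (1 - -L 0) / κ < 0 := div_neg_of_neg_of_pos (by simp only [hL]; linarith) hκ
  linarith

end LC


/-- exact value for small slopes -/
lemma J_small {κ : ℝ} (hκ : 0 ≤ κ) (hκ' : κ ≤ 3/4) :
    ∫ y, kf y * Fk 1 κ y = exp (4/3 * κ - 1) / (1 + κ)^2 := by
  rw [integral_kf_mul]
  have h1 : ∀ w ∈ Ioi (0:ℝ), w * exp (-w) * Fk 1 κ (4/3 - w) = exp (4/3 * κ - 1) * (w ^ ((2:ℝ) - 1) * exp (-((1 + κ) * w))) := by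
    intro w hw
    simp only [mem_Ioi] at hw
    unfold Fk
    rw [min_eq_right]
    · have h2 : (2:ℝ) - 1 = 1 := by norm_num
      rw [h2, rpow_one]
      have h3 : exp (-((1 + κ) * w)) * exp (4/3 * κ - 1) = exp (-w) * exp (κ * (4/3 - w) - 1) := by
        rw [← exp_add, ← exp_add]; ring_nf
      calc _ = w * (exp (-w) * exp (κ * (4/3 - w) - 1)) := by ring
        _ = _ := by rw [← h3]; ring
    · apply Real.exp_le_one_iff.mpr
      nlinarith
  rw [setIntegral_congr_fun measurableSet_Ioi h1, integral_const_mul,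
    Real.integral_rpow_mul_exp_neg_mul_Ioi (by norm_num) (by linarith)]
  have h3 : Real.Gamma 2 = 1 := Real.Gamma_two
  rw [h3]
  have h4 : (1 / (1 + κ)) ^ (2:ℝ) = 1 / (1 + κ)^2 := by
    rw [show (2:ℝ) = ((2:ℕ):ℝ) by norm_num, rpow_natCast]
    simp
  rw [h4]
  ring

lemma J_small_ge {κ : ℝ} (hκ : 0 ≤ κ) (hκ' : κ ≤ 3/4) :
    4/9 * exp (-1/3) ≤ ∫ y, kf y * Fk 1 κ y := by
  rw [J_small hκ hκ', le_div_iff₀ (by positivity)]
  have h1 : (1 + κ) / (3/2) ≤ exp ((1 + κ)/(3/2) - 1) := by
    have := Real.add_one_le_exp ((1 + κ)/(3/2) - 1)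
    linarith
  have h2 : ((1 + κ) / (3/2))^2 ≤ exp ((1 + κ)/(3/2) - 1)^2 := by
    apply pow_le_pow_left₀ (by positivity) h1
  rw [← Real.exp_nat_mul] at h2
  have h3 : exp (4/3 * κ - 1) = exp (-1/3) * exp ((2:ℕ) * ((1 + κ)/(3/2) - 1)) := by
    rw [← exp_add]; congr 1; push_cast; ring
  rw [h3]
  have h4 := exp_pos (-1/3)
  have h5 : 4/9 * (1+κ)^2 ≤ exp ((2:ℕ) * ((1 + κ)/(3/2) - 1)) := by
    refine le_trans (le_of_eq ?_) h2
    ring
  nlinarith

/-- lower bound `(3/4)`-free: for `κ > 3/4` -/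
lemma J_big {κ : ℝ} (hκ : 3/4 < κ) :
    ∫ y, kf y * Fk 1 κ y = 1 - exp (-(4/3 - 1/κ)) * (1 + (4/3 - 1/κ) - (4/3 - 1/κ)/(1+κ) - 1/(1+κ)^2) := by
  rw [integral_kf_mul]
  set u : ℝ := 4/3 - 1/κ with hu
  have hκ0 : 0 < κ := by linarith
  have hu0 : 0 < u := by
    rw [hu, sub_pos, div_lt_iff₀ hκ0]; linarith
  have hκu : κ * u = 4/3 * κ - 1 := by rw [hu]; field_simp
  have hint : IntegrableOn (fun w => w * exp (-w) * Fk 1 κ (4/3 - w)) (Ioi 0) := by
    refine Integrable.mono' integrable_wexp ?_ ?_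
    · apply Measurable.aestronglyMeasurable
      unfold Fk
      fun_prop
    · refine (ae_restrict_iff' measurableSet_Ioi).mpr (Eventually.of_forall ?_)
      intro w hw
      simp only [mem_Ioi] at hw
      have h1 : 0 ≤ Fk 1 κ (4/3 - w) := le_min zero_le_one (exp_pos _).le
      have h2 : Fk 1 κ (4/3 - w) ≤ 1 := min_le_left _ _
      have h3 : 0 ≤ w * exp (-w) := by positivity
      rw [Real.norm_of_nonneg (mul_nonneg h3 h1)]
      nlinarith
  rw [← Ioc_union_Ioi_eq_Ioi hu0.le, setIntegral_union (Ioc_disjoint_Ioi le_rfl) measurableSet_Ioi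
    (hint.mono_set Ioc_subset_Ioi_self) (hint.mono_set (Ioi_subset_Ioi hu0.le))]
  have hA : ∫ w in Ioc 0 u, w * exp (-w) * Fk 1 κ (4/3 - w) = 1 - (1 + u) * exp (-u) := by
    have h1 : ∀ w ∈ Ioc 0 u, w * exp (-w) * Fk 1 κ (4/3 - w) = w * exp (-w) := by
      intro w hw
      unfold Fk
      rw [min_eq_left, mul_one]
      apply Real.one_le_exp
      have : κ * w ≤ κ * u := mul_le_mul_of_nonneg_left hw.2 hκ0.le
      linarith
    rw [setIntegral_congr_fun measurableSet_Ioc h1, ← intervalIntegral.integral_of_le hu0.le]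
    have h2 : ∀ x ∈ uIcc 0 u, HasDerivAt (fun w : ℝ => -(1 + w) * exp (-w)) (x * exp (-x)) x := by
      intro x _
      have h3 : HasDerivAt (fun w : ℝ => -(1 + w)) (-1) x :=
        HasDerivAt.fun_neg ((hasDerivAt_id' x).const_add 1)
      have h4 : HasDerivAt (fun w : ℝ => exp (-w)) (exp (-x) * (-1)) x := (hasDerivAt_neg x).exp
      convert! h3.mul h4 using 1
      ring
    rw [intervalIntegral.integral_eq_sub_of_hasDerivAt h2]
    · simp; ring
    · apply Continuous.intervalIntegrable; fun_prop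
  have hB : ∫ w in Ioi u, w * exp (-w) * Fk 1 κ (4/3 - w) = exp (-u) * (u / (1+κ) + 1/(1+κ)^2) := by
    have h1 : ∀ w ∈ Ioi u, w * exp (-w) * Fk 1 κ (4/3 - w) = w * exp (-((1 + κ) * w - κ * u)) := by
      intro w hw
      simp only [mem_Ioi] at hw
      unfold Fk
      rw [min_eq_right]
      · rw [mul_assoc, ← exp_add]
        congr 2
        rw [hκu]; ring
      · apply Real.exp_le_one_iff.mpr
        have : κ * u < κ * w := mul_lt_mul_of_pos_left hw hκ0
        linarith
    rw [setIntegral_congr_fun measurableSet_Ioi h1]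
    have h2 : ∀ x ∈ Ioi u, HasDerivAt (fun w : ℝ => -(w / (1+κ) + 1/(1+κ)^2) * exp (-((1 + κ) * w - κ * u))) (x * exp (-((1 + κ) * x - κ * u))) x := by
      intro x _
      have h3 : HasDerivAt (fun w : ℝ => -(w / (1+κ) + 1/(1+κ)^2)) (-(1/(1+κ))) x :=
        HasDerivAt.fun_neg (((hasDerivAt_id' x).div_const (1+κ)).add_const (1/(1+κ)^2))
      have h5 : HasDerivAt (fun w : ℝ => -((1 + κ) * w - κ * u)) (-((1+κ) * 1)) x :=
        HasDerivAt.fun_neg (((hasDerivAt_id' x).const_mul (1+κ)).sub_const (κ * u))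
      convert! h3.mul h5.exp using 1
      field_simp
      ring
    have hcont : ContinuousWithinAt (fun w : ℝ => -(w / (1+κ) + 1/(1+κ)^2) * exp (-((1 + κ) * w - κ * u))) (Ici u) u := by
      apply Continuous.continuousWithinAt; fun_prop
    have hlim : Tendsto (fun w : ℝ => -(w / (1+κ) + 1/(1+κ)^2) * exp (-((1 + κ) * w - κ * u))) atTop (𝓝 0) := by
      have t1 : Tendsto (fun w : ℝ => w ^ 1 * exp (-w)) atTop (𝓝 0) := Real.tendsto_pow_mul_exp_neg_atTop_nhds_zero 1
      have t0 : Tendsto (fun w : ℝ => exp (-w)) atTop (𝓝 0) := Real.tendsto_exp_neg_atTop_nhds_zero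
      have tl : Tendsto (fun w : ℝ => (1+κ) * w) atTop atTop := tendsto_id.const_mul_atTop (by linarith)
      have t1' := (t1.comp tl).const_mul (-(exp (κ * u) / (1+κ)^2))
      have t0' := (t0.comp tl).const_mul (-(exp (κ * u) / (1+κ)^2))
      have := t1'.add t0'
      simp only [Function.comp_apply, mul_zero, add_zero, pow_one] at this
      refine this.congr (fun w => ?_)
      have h6 : exp (-((1 + κ) * w - κ * u)) = exp (κ * u) * exp (-((1+κ) * w)) := by
        rw [← exp_add]; ring_nf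
      rw [h6]
      field_simp
      ring
    have hpos : ∀ x ∈ Ioi u, 0 ≤ x * exp (-((1 + κ) * x - κ * u)) := by
      intro x hx
      have : 0 < x := lt_trans hu0 hx
      positivity
    rw [integral_Ioi_of_hasDerivAt_of_nonneg hcont h2 hpos hlim]
    have h7 : (1 + κ) * u - κ * u = u := by ring
    rw [h7]; ring
  rw [hA, hB]
  ring

lemma J_big_ge {κ : ℝ} (hκ : 3/4 < κ) :
    4/9 * exp (-1/3) ≤ ∫ y, kf y * Fk 1 κ y := by
  rw [J_big hκ]
  have hκ0 : 0 < κ := by linarith
  set s : ℝ := 1/κ with hs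
  have hs0 : 0 < s := by positivity
  have hs1 : s < 4/3 := by rw [hs, div_lt_iff₀ hκ0]; linarith
  have hκs : κ = 1/s := by rw [hs]; field_simp
  set u : ℝ := 4/3 - s with hu
  have hu0 : 0 < u := by linarith
  have hs' : s = 4/3 - u := by linarith
  have h1 : 1 + u - u/(1+κ) - 1/(1+κ)^2 = (1 + 2*s + u*(1+s))/(1+s)^2 := by
    rw [hκs]; field_simp; ring
  rw [h1]
  have h2 : 1 + u + u^2/2 + u^3/6 ≤ exp u := by
    have := Real.sum_le_exp_of_nonneg hu0.le 4
    simp only [Finset.sum_range_succ, Finset.sum_range_zero, Nat.factorial] at this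
    norm_num at this
    linarith
  have h3 : 1 + 2*s + u*(1+s) ≤ 17/25 * ((1+s)^2 * exp u) := by
    have h4 : 1 + 2*s + u*(1+s) ≤ 17/25 * ((1+s)^2 * (1 + u + u^2/2 + u^3/6)) := by
      rw [hs']
      have hu1 : u < 4/3 := by linarith
      nlinarith [mul_nonneg hu0.le (sub_nonneg.mpr hu1.le), mul_nonneg (mul_nonneg hu0.le hu0.le) (sub_nonneg.mpr hu1.le), mul_nonneg (mul_nonneg hu0.le (sub_nonneg.mpr hu1.le)) (sub_nonneg.mpr hu1.le), pow_pos hu0 2, pow_pos hu0 3, mul_nonneg (pow_pos hu0 2).le (mul_nonneg (sub_nonneg.mpr hu1.le) (sub_nonneg.mpr hu1.le)), mul_nonneg (pow_pos hu0 3).le (mul_nonneg (sub_nonneg.mpr hu1.le) (sub_nonneg.mpr hu1.le))]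
    have h5 : (1+s)^2 * (1 + u + u^2/2 + u^3/6) ≤ (1+s)^2 * exp u := mul_le_mul_of_nonneg_left h2 (by positivity)
    linarith
  have h6 : exp (-u) * ((1 + 2*s + u*(1+s))/(1+s)^2) ≤ 17/25 := by
    rw [exp_neg, inv_mul_le_iff₀ (exp_pos u), div_le_iff₀ (by positivity)]
    linarith
  have h7 : exp (-1/3) ≤ 18/25 := by
    have h8 : (25/18:ℝ) ≤ exp (1/3) := by
      have := Real.sum_le_exp_of_nonneg (x := 1/3) (by norm_num) 4
      simp only [Finset.sum_range_succ, Finset.sum_range_zero, Nat.factorial] at this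
      norm_num at this
      linarith
    have h9 : exp (-1/3) = (exp (1/3))⁻¹ := by rw [← exp_neg]; norm_num
    rw [h9, inv_le_comm₀ (exp_pos _) (by norm_num)]
    norm_num at h8 ⊢
    exact h8
  linarith

lemma J_ge {κ : ℝ} (hκ : 0 ≤ κ) : 4/9 * exp (-1/3) ≤ ∫ y, kf y * Fk 1 κ y := by
  rcases le_or_gt κ (3/4) with h | h
  · exact J_small_ge hκ h
  · exact J_big_ge h

lemma Fk_nonneg (β κ y : ℝ) : 0 ≤ Fk β κ y := le_min zero_le_one (exp_pos _).le
lemma Fk_le_one (β κ y : ℝ) : Fk β κ y ≤ 1 := min_le_left _ _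

lemma integrable_kf_mul {F : ℝ → ℝ} (hm : Measurable F) (h0 : ∀ y, 0 ≤ F y) (h1 : ∀ y, F y ≤ 1) :
    Integrable (fun y => kf y * F y) := by
  refine Integrable.mono' kf_integrable (kf_measurable.mul hm).aestronglyMeasurable (Eventually.of_forall ?_)
  intro y
  rw [Real.norm_of_nonneg (mul_nonneg (kf_nonneg y) (h0 y))]
  nlinarith [kf_nonneg y, h0 y, h1 y]

lemma Fk_measurable (β κ : ℝ) : Measurable (Fk β κ) := by
  unfold Fk; fun_prop

namespace LC

variable {F : ℝ → ℝ} (h : LC F)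
include h

lemma caseA {κ : ℝ} (hκ : 0 ≤ κ) (hA : ∀ y ≤ 4/3, κ * y - 1 ≤ log (F y)) :
    4/9 * exp (-1/3) ≤ ∫ y, kf y * F y := by
  refine (J_ge hκ).trans ?_
  apply integral_mono (integrable_kf_mul (Fk_measurable _ _) (Fk_nonneg _ _) (Fk_le_one _ _))
    (integrable_kf_mul h.mono.measurable (fun y => (h.pos y).le) h.le_one)
  intro y
  simp only
  by_cases hy : y < 4/3
  · apply mul_le_mul_of_nonneg_left _ (kf_nonneg y)
    refine (min_le_right _ _).trans ?_
    rw [← Real.exp_log (h.pos y)]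
    exact Real.exp_le_exp.mpr (hA y hy.le)
  · have : kf y = 0 := by unfold kf; rw [if_neg hy]
    rw [this]; simp

lemma caseB {θ : ℝ} (hθ : 0 < θ)
    (hD : (4/3 - w1 θ) * (log (F (4/3 - w1 θ - θ)) + 1) - (4/3 - w1 θ - θ) * (log (F (4/3 - w1 θ)) + 1) = 0) :
    4/9 * exp (-1/3) ≤ ∫ y, kf y * F y := by
  set q : ℝ := 4/3 - w1 θ with hq
  set p : ℝ := q - θ with hp
  set κ : ℝ := (log (F q) - log (F p)) / θ with hκdef
  have hκθ : κ * θ = log (F q) - log (F p) := by rw [hκdef]; field_simp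
  have hpq : p ≤ q := by linarith
  have hκ0 : 0 ≤ κ := div_nonneg (sub_nonneg.mpr (h.Lmono hpq)) hθ.le
  have hLp : log (F p) = κ * p - 1 := by
    have h1 : θ * log (F p) = θ * (κ * p - 1) := by
      have : log (F q) = log (F p) + κ * θ := by linarith
      rw [this] at hD
      have hθ' : θ = q - p := by linarith
      have : q * (log (F p) + 1) - p * (log (F p) + κ * θ + 1) = (q - p) * (log (F p) + 1) - p * κ * θ := by ring
      rw [this, ← hθ'] at hD
      linarith
    exact mul_left_cancel₀ hθ.ne' h1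
  have hLq : log (F q) = κ * q - 1 := by
    have : log (F q) = log (F p) + κ * θ := by linarith
    rw [this, hLp, hp]; ring
  have hmid : ∀ y, p ≤ y → y ≤ q → κ * y - 1 ≤ log (F y) := by
    intro y hy1 hy2
    have := h.chord p y q hy1 hy2
    rw [hLp, hLq] at this
    have h2 : (q - p) * (κ * y - 1) ≤ (q - p) * log (F y) := by linarith
    exact le_of_mul_le_mul_left h2 (by linarith)
  have hleft : ∀ y, y ≤ p → log (F y) ≤ κ * y - 1 := by
    intro y hy1
    have := h.chord y p q hy1 hpq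
    rw [hLp, hLq] at this
    have h2 : (q - p) * log (F y) ≤ (q - p) * (κ * y - 1) := by linarith
    exact le_of_mul_le_mul_left h2 (by linarith)
  have hright : ∀ y, q ≤ y → log (F y) ≤ κ * y - 1 := by
    intro y hy1
    have := h.chord p q y hpq hy1
    rw [hLp, hLq] at this
    have h2 : (q - p) * log (F y) ≤ (q - p) * (κ * y - 1) := by linarith
    exact le_of_mul_le_mul_left h2 (by linarith)
  have hκ : 0 < κ := by
    rcases hκ0.lt_or_eq with h1 | h1
    · exact h1
    · exfalso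
      obtain ⟨y, hy1, hy2⟩ := h.exists_gt (c := -1) (by norm_num) q
      have := hright y hy1.le
      rw [← h1] at this
      linarith
  have hup : ∀ y, log (F y) ≤ κ * y - 1 → F y ≤ Fk 1 κ y := by
    intro y hy
    apply le_min (h.le_one y)
    rw [← Real.exp_log (h.pos y)]
    exact Real.exp_le_exp.mpr hy
  have hlow : ∀ y, κ * y - 1 ≤ log (F y) → Fk 1 κ y ≤ F y := by
    intro y hy
    refine (min_le_right _ _).trans ?_
    rw [← Real.exp_log (h.pos y)]
    exact Real.exp_le_exp.mpr hy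
  set lam : ℝ := kf q with hlam
  have hsign : ∀ y, 0 ≤ (kf y - lam) * (F y - Fk 1 κ y) := by
    intro y
    rcases lt_or_ge y p with h1 | h1
    · apply mul_nonneg_of_nonpos_of_nonpos
      · have := kf_le_left (y := y) hθ h1.le
        linarith
      · have := hup y (hleft y h1.le); linarith
    · rcases le_or_gt y q with h2 | h2
      · apply mul_nonneg
        · have := kf_ge (y := y) hθ h1 h2
          linarith
        · have := hlow y (hmid y h1 h2); linarith
      · apply mul_nonneg_of_nonpos_of_nonpos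
        · have := kf_le_right (y := y) hθ h2.le
          linarith
        · have := hup y (hright y h2.le); linarith
  have hi1 := integrable_kf_mul (Fk_measurable 1 κ) (Fk_nonneg _ _) (Fk_le_one _ _)
  have hi2 := integrable_kf_mul h.mono.measurable (fun y => (h.pos y).le) h.le_one
  have hi3 : Integrable (fun y => F y - Fk 1 κ y) := by
    refine (h.int.sub (integrable_Fk (β := 1) zero_le_one hκ)).congr (Eventually.of_forall ?_)
    intro y; simp only [Pi.sub_apply]; ring
  have hz : ∫ y, (F y - Fk 1 κ y) = 0 := by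
    have : ∫ y, (F y - Fk 1 κ y) = ∫ y, ((F y - Hv y) - (Fk 1 κ y - Hv y)) := by
      congr 1; ext y; ring
    rw [this, integral_sub h.int (integrable_Fk (β := 1) zero_le_one hκ), h.zero, integral_Fk zero_le_one hκ]
    simp
  have hfin : 0 ≤ ∫ y, (kf y - lam) * (F y - Fk 1 κ y) := integral_nonneg hsign
  have heq : ∫ y, (kf y - lam) * (F y - Fk 1 κ y) = (∫ y, kf y * F y) - ∫ y, kf y * Fk 1 κ y := by
    have : ∀ y, (kf y - lam) * (F y - Fk 1 κ y) = (kf y * F y - kf y * Fk 1 κ y) - lam * (F y - Fk 1 κ y) := by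
      intro y; ring
    simp_rw [this]
    have hs : Integrable (fun y => kf y * F y - kf y * Fk 1 κ y) := hi2.sub hi1
    rw [integral_sub hs (hi3.const_mul lam), integral_sub hi2 hi1, integral_const_mul, hz]
    ring
  have := J_ge hκ.le
  linarith

end LC


lemma w1_le {θ : ℝ} (h : 0 < θ) : w1 θ ≤ 2 / θ := by
  unfold w1
  have h1 := Real.quadratic_le_exp_of_nonneg h.le
  rw [div_le_div_iff₀ (by nlinarith) h]
  nlinarith

lemma w1_tendsto : Tendsto w1 atTop (𝓝 0) := by
  have h1 : Tendsto (fun θ : ℝ => 2 / θ) atTop (𝓝 0) := tendsto_const_nhds.div_atTop tendsto_id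
  refine squeeze_zero' ?_ ?_ h1
  · filter_upwards [eventually_gt_atTop 0] with θ h using (w1_pos h).le
  · filter_upwards [eventually_gt_atTop 0] with θ h using w1_le h

lemma w1_contOn : ContinuousOn w1 (Ioi 0) := by
  unfold w1
  apply ContinuousOn.div continuousOn_id (by fun_prop)
  intro x hx
  have := Real.add_one_lt_exp (ne_of_gt (mem_Ioi.mp hx))
  have hx' : 0 < x := hx
  linarith

lemma w1_half : w1 (1/2) < 5/6 := by
  unfold w1
  have h1 := Real.quadratic_le_exp_of_nonneg (x := 1/2) (by norm_num)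
  rw [div_lt_iff₀ (by linarith)]
  norm_num at h1 ⊢
  linarith

namespace LC

variable {F : ℝ → ℝ} (h : LC F)
include h

theorem main : 4/9 * exp (-1/3) ≤ ∫ y, kf y * F y := by
  set L : ℝ → ℝ := fun y => log (F y) with hL
  have hLc : Continuous L := h.Lcont
  have hG : -1 ≤ L 0 := h.gruenbaum
  set D : ℝ → ℝ := fun θ => (4/3 - w1 θ) * (L (4/3 - w1 θ - θ) + 1) - (4/3 - w1 θ - θ) * (L (4/3 - w1 θ) + 1) with hD
  by_cases hcase : ∃ θ, 1/2 ≤ θ ∧ D θ < 0
  · obtain ⟨θ₁, h1, h2⟩ := hcase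
    have hDhalf : 0 ≤ D (1/2) := by
      have hw := w1_half
      have hw0 := w1_pos (θ := 1/2) (by norm_num)
      have := h.chord 0 (4/3 - w1 (1/2) - 1/2) (4/3 - w1 (1/2)) (by linarith) (by linarith)
      have e1 : log (F 0) = L 0 := rfl
      have e2 : log (F (4/3 - w1 (1/2) - 1/2)) = L (4/3 - w1 (1/2) - 1/2) := rfl
      have e3 : log (F (4/3 - w1 (1/2))) = L (4/3 - w1 (1/2)) := rfl
      rw [e1, e2, e3] at this
      simp only [hD]
      linarith
    have hDc : ContinuousOn D (Icc (1/2) θ₁) := by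
      have hw : ContinuousOn w1 (Icc (1/2) θ₁) := w1_contOn.mono (fun x hx => by
        simp only [mem_Icc] at hx; simp only [mem_Ioi]; linarith [hx.1])
      have a1 : ContinuousOn (fun θ => 4/3 - w1 θ) (Icc (1/2) θ₁) := continuousOn_const.sub hw
      have a2 : ContinuousOn (fun θ => 4/3 - w1 θ - θ) (Icc (1/2) θ₁) := a1.sub continuousOn_id
      have a3 : ContinuousOn (fun θ => L (4/3 - w1 θ)) (Icc (1/2) θ₁) := hLc.comp_continuousOn a1
      have a4 : ContinuousOn (fun θ => L (4/3 - w1 θ - θ)) (Icc (1/2) θ₁) := hLc.comp_continuousOn a2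
      exact (a1.mul (a4.add continuousOn_const)).sub (a2.mul (a3.add continuousOn_const))
    obtain ⟨θ, hθ1, hθ2⟩ := intermediate_value_Icc' h1 hDc ⟨h2.le, hDhalf⟩
    exact h.caseB (θ := θ) (by linarith [hθ1.1]) hθ2
  · push Not at hcase
    have hLt : -1 ≤ L (4/3) := hG.trans (h.Lmono (by norm_num))
    apply h.caseA (κ := 3/4 * (L (4/3) + 1)) (by linarith)
    intro y hy
    rcases le_or_gt 0 y with hy0 | hy0
    · have := h.chord 0 y (4/3) hy0 hy
      have e1 : log (F 0) = L 0 := rfl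
      have e2 : log (F y) = L y := rfl
      have e3 : log (F (4/3)) = L (4/3) := rfl
      rw [e1, e2, e3] at this
      change 3/4 * (L (4/3) + 1) * y - 1 ≤ L y
      nlinarith
    · have hev : ∀ᶠ θ in atTop, 0 ≤ (4/3 - w1 θ) * (L y + 1) - y * (L (4/3 - w1 θ) + 1) := by
        filter_upwards [eventually_ge_atTop (4/3 - y), eventually_ge_atTop (1/2)] with θ hθ1 hθ2
        have hθ : 0 < θ := by linarith
        have hw0 := w1_pos hθ
        have hw1 := w1_lt_one hθ
        set q := 4/3 - w1 θ with hq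
        set p := q - θ with hp
        have hpy : p ≤ y := by linarith
        have hyq : y ≤ q := by linarith
        have hc := h.chord p y q hpy hyq
        have hDθ : 0 ≤ q * (L p + 1) - p * (L q + 1) := hcase θ hθ2
        have e1 : log (F p) = L p := rfl
        have e2 : log (F y) = L y := rfl
        have e3 : log (F q) = L q := rfl
        rw [e1, e2, e3] at hc
        have hq0 : 0 < q := by linarith
        have hqp : 0 < q - p := by linarith
        have hqy : 0 < q - y := by linarith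
        have key : 0 ≤ (q - p) * (q * (L y + 1) - y * (L q + 1)) := by
          have k1 : q * ((q - y) * L p + (y - p) * L q) ≤ q * ((q - p) * L y) := mul_le_mul_of_nonneg_left hc hq0.le
          have k2 : 0 ≤ (q - y) * (q * (L p + 1) - p * (L q + 1)) := mul_nonneg hqy.le hDθ
          nlinarith
        by_contra hneg
        push Not at hneg
        nlinarith [mul_neg_of_pos_of_neg hqp hneg]
      have ha : Tendsto (fun θ => 4/3 - w1 θ) atTop (𝓝 (4/3)) := by
        have := w1_tendsto.const_sub (4/3)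
        simpa using this
      have hb : Tendsto (fun θ => L (4/3 - w1 θ)) atTop (𝓝 (L (4/3))) := (hLc.tendsto _).comp ha
      have hlim : Tendsto (fun θ => (4/3 - w1 θ) * (L y + 1) - y * (L (4/3 - w1 θ) + 1)) atTop
          (𝓝 (4/3 * (L y + 1) - y * (L (4/3) + 1))) :=
        (ha.mul_const _).sub ((hb.add_const 1).const_mul y)
      have := ge_of_tendsto hlim hev
      change 3/4 * (L (4/3) + 1) * y - 1 ≤ L y
      linarith

end LC

end Crest.Agent.S0423
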