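import Mathlib
import Crest.Agent.S0423h.Det

set_option autoImplicit false
open MeasureTheory Set Filter Topology Real
open scoped ENNReal

namespace Crest.Agent.S0423

/-- the mean-one exponential law -/
noncomputable def nu : Measure ℝ :=
  (volume.restrict (Ioi (0:ℝ))).withDensity (fun x => ENNReal.ofReal (exp (-x)))

lemma integral_nu (f : ℝ → ℝ) : ∫ x, f x ∂nu = ∫ x in Ioi (0:ℝ), exp (-x) * f x := by
  unfold nu
  rw [integral_withDensity_eq_integral_toReal_smul (by fun_prop) (Eventually.of_forall fun _ => ENNReal.ofReal_lt_top)]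
  congr 1
  ext x
  rw [ENNReal.toReal_ofReal (exp_pos _).le, smul_eq_mul]

lemma lintegral_nu (f : ℝ → ℝ≥0∞) (hf : Measurable f) :
    ∫⁻ x, f x ∂nu = ∫⁻ x in Ioi (0:ℝ), ENNReal.ofReal (exp (-x)) * f x := by
  unfold nu
  rw [lintegral_withDensity_eq_lintegral_mul _ (by fun_prop) hf]
  rfl

lemma nu_univ : nu univ = 1 := by
  unfold nu
  rw [withDensity_apply _ MeasurableSet.univ, Measure.restrict_univ,
    ← ofReal_integral_eq_lintegral_ofReal (integrableOn_exp_neg_Ioi 0) (Eventually.of_forall fun _ => (exp_pos _).le),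
    integral_exp_neg_Ioi_zero]
  simp

instance : IsProbabilityMeasure nu := ⟨nu_univ⟩

lemma lintegral_pi_prod (n : ℕ) (μ : Fin n → Measure ℝ) [∀ i, SigmaFinite (μ i)]
    (f : Fin n → ℝ → ℝ≥0∞) (hf : ∀ i, Measurable (f i)) :
    ∫⁻ x, ∏ i, f i (x i) ∂(Measure.pi μ) = ∏ i, ∫⁻ x, f i x ∂(μ i) := by
  induction n with
  | zero => simp
  | succ n ih =>
    have hm : Measurable (fun x : Fin (n+1) → ℝ => ∏ i, f i (x i)) :=
      Finset.measurable_prod _ (fun i _ => (hf i).comp (measurable_pi_apply i))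
    rw [← ((measurePreserving_piFinSuccAbove μ 0).symm).lintegral_comp hm]
    simp_rw [MeasurableEquiv.piFinSuccAbove_symm_apply, Fin.insertNthEquiv,
            Fin.prod_univ_succ, Fin.insertNth_zero, Equiv.coe_fn_mk, Fin.cons_succ,
            Fin.zero_succAbove, cast_eq, Fin.cons_zero]
    rw [lintegral_prod_mul (g := fun z : Fin n → ℝ => ∏ i, f i.succ (z i)) (hf 0).aemeasurable]
    · rw [ih (fun i => μ i.succ) (fun i => f i.succ) (fun i => hf _)]
    · exact (Finset.measurable_prod _ (fun i _ => (hf i.succ).comp (measurable_pi_apply i))).aemeasurable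

noncomputable def nuN (N : ℕ) : Measure (Fin N → ℝ) := Measure.pi (fun _ => nu)

instance (N : ℕ) : IsProbabilityMeasure (nuN N) := by unfold nuN; infer_instance

lemma nuN_eq (N : ℕ) : nuN N = (volume.restrict (Set.pi univ (fun _ : Fin N => Ioi (0:ℝ)))).withDensity
    (fun x => ENNReal.ofReal (exp (-∑ i, x i))) := by
  unfold nuN
  apply Measure.pi_eq
  intro s hs
  rw [withDensity_apply _ (MeasurableSet.univ_pi hs), volume_pi, Measure.restrict_pi_pi, Measure.restrict_pi_pi]
  have h1 : ∀ x : Fin N → ℝ, ENNReal.ofReal (exp (-∑ i, x i)) = ∏ i, ENNReal.ofReal (exp (-(x i))) := by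
    intro x
    rw [← Finset.sum_neg_distrib, Real.exp_sum, ENNReal.ofReal_prod_of_nonneg (fun i _ => (exp_pos _).le)]
  simp_rw [h1]
  rw [lintegral_pi_prod N _ (fun _ x => ENNReal.ofReal (exp (-x))) (fun i => by fun_prop)]
  apply Finset.prod_congr rfl
  intro i _
  unfold nu
  rw [withDensity_apply _ (hs i)]

lemma integral_nuN (N : ℕ) (f : (Fin N → ℝ) → ℝ) :
    ∫ x, f x ∂(nuN N) = ∫ x in Set.pi univ (fun _ : Fin N => Ioi (0:ℝ)), f x * exp (-∑ i, x i) := by
  rw [nuN_eq, integral_withDensity_eq_integral_toReal_smul (by fun_prop) (Eventually.of_forall fun _ => ENNReal.ofReal_lt_top)]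
  congr 1
  ext x
  rw [ENNReal.toReal_ofReal (exp_pos _).le, smul_eq_mul, mul_comm]


lemma Hv_nonneg (y : ℝ) : 0 ≤ Hv y := by unfold Hv; split_ifs <;> norm_num
lemma Hv_le_one (y : ℝ) : Hv y ≤ 1 := by unfold Hv; split_ifs <;> norm_num
lemma Hv_mono : Monotone Hv := by
  intro x y hxy
  unfold Hv
  split_ifs with h1 h2 h2
  · exact le_rfl
  · exact absurd (h1.trans hxy) h2
  · norm_num
  · exact le_rfl

/-- cdf of `∑ b i X i` -/
noncomputable def Fb {n : ℕ} (b : Fin n → ℝ) (y : ℝ) : ℝ := ∫ x, Hv (y - ∑ i, b i * x i) ∂(nuN n)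

lemma integrable_Hv {α : Type*} [MeasurableSpace α] (μ : Measure α) [IsFiniteMeasure μ] (g : α → ℝ) (hg : Measurable g) :
    Integrable (fun x => Hv (g x)) μ := by
  refine Integrable.mono' (integrable_const (1:ℝ)) (Hv_measurable.comp hg).aestronglyMeasurable (Eventually.of_forall ?_)
  intro x
  rw [Real.norm_of_nonneg (Hv_nonneg _)]
  exact Hv_le_one _

lemma Fb_nonneg {n : ℕ} (b : Fin n → ℝ) (y : ℝ) : 0 ≤ Fb b y := integral_nonneg (fun _ => Hv_nonneg _)

lemma Fb_le_one {n : ℕ} (b : Fin n → ℝ) (y : ℝ) : Fb b y ≤ 1 := by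
  have h := integral_mono (μ := nuN n) (integrable_Hv (nuN n) (fun x => y - ∑ i, b i * x i) (by fun_prop))
    (integrable_const (1:ℝ)) (fun _ => Hv_le_one _)
  simpa [Fb] using h

lemma Fb_mono {n : ℕ} (b : Fin n → ℝ) : Monotone (Fb b) := by
  intro x y hxy
  apply integral_mono (integrable_Hv _ _ (by fun_prop)) (integrable_Hv _ _ (by fun_prop))
  intro z
  exact Hv_mono (by linarith)

lemma Fb_zero (b : Fin 0 → ℝ) (y : ℝ) : Fb b y = Hv y := by
  unfold Fb
  simp

lemma Fb_succ {n : ℕ} (b : Fin (n+1) → ℝ) (y : ℝ) :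
    Fb b y = ∫ x, Fb (fun i => b i.succ) (y - b 0 * x) ∂nu := by
  unfold Fb nuN
  rw [← ((measurePreserving_piFinSuccAbove (fun _ : Fin (n+1) => nu) 0).symm).integral_comp']
  simp only [MeasurableEquiv.piFinSuccAbove_symm_apply, Fin.insertNthEquiv,
            Fin.sum_univ_succ, Fin.insertNth_zero, Equiv.coe_fn_mk, Fin.cons_succ, Fin.zero_succAbove, cast_eq,
            Fin.cons_zero]
  rw [integral_prod]
  · congr 1
    ext x
    congr 1
    ext z
    congr 1
    ring
  · exact integrable_Hv _ _ (by fun_prop)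

/-- total positivity of order two, i.e. log-concavity -/
def PF2 (F : ℝ → ℝ) : Prop := ∀ x y v, x ≤ y → 0 ≤ v → F (x - v) * F y ≤ F x * F (y - v)

lemma PF2_Hv : PF2 Hv := by
  intro x y v hxy hv
  unfold Hv
  by_cases h1 : 0 ≤ x - v
  · rw [if_pos h1, if_pos (by linarith : 0 ≤ y), if_pos (by linarith : 0 ≤ x), if_pos (by linarith : 0 ≤ y - v)]
  · rw [if_neg h1, zero_mul]
    split_ifs <;> norm_num

section conv

variable {F : ℝ → ℝ} (hm : Measurable F) (h0 : ∀ y, 0 ≤ F y) (h1 : ∀ y, F y ≤ 1)
include hm h0 h1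

lemma integrableOn_expF (g : ℝ → ℝ) (hg : Measurable g) :
    IntegrableOn (fun x => exp (-x) * F (g x)) (Ioi 0) := by
  refine Integrable.mono' (integrableOn_exp_neg_Ioi 0) ?_ (Eventually.of_forall ?_)
  · exact ((by fun_prop : Measurable (fun x : ℝ => exp (-x))).mul (hm.comp hg)).aestronglyMeasurable
  · intro x
    rw [Real.norm_of_nonneg (mul_nonneg (exp_pos _).le (h0 _))]
    have := exp_pos (-x)
    nlinarith [h1 (g x)]

omit h0 h1 hm in
lemma shift_Ioi (η : ℝ) (f : ℝ → ℝ) : ∫ x in Ioi η, f x = ∫ x in Ioi (0:ℝ), f (x + η) := by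
  rw [← integral_indicator measurableSet_Ioi, ← integral_indicator measurableSet_Ioi,
    ← integral_add_right_eq_self _ η]
  congr 1
  ext x
  simp only [indicator, mem_Ioi]
  by_cases h : 0 < x
  · rw [if_pos (by linarith), if_pos h]
  · rw [if_neg (by linarith), if_neg h]

lemma split_pos {c : ℝ} (hc : 0 < c) (z v : ℝ) (hv : 0 ≤ v) :
    ∫ x in Ioi (0:ℝ), exp (-x) * F (z - c * x) =
      (∫ x in Ioc (0:ℝ) (v/c), exp (-x) * F (z - c * x)) +
      exp (-(v/c)) * ∫ x in Ioi (0:ℝ), exp (-x) * F (z - v - c * x) := by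
  have hη : 0 ≤ v / c := by positivity
  have hint := integrableOn_expF hm h0 h1 (fun x => z - c * x) (by fun_prop)
  rw [← Ioc_union_Ioi_eq_Ioi hη, setIntegral_union (Ioc_disjoint_Ioi le_rfl) measurableSet_Ioi
    (hint.mono_set Ioc_subset_Ioi_self) (hint.mono_set (Ioi_subset_Ioi hη)), shift_Ioi, ← integral_const_mul]
  rw [Ioc_union_Ioi_eq_Ioi hη]
  congr 2
  ext x
  rw [← mul_assoc, ← exp_add]
  congr 2
  · ring
  · field_simp; ring

lemma split_neg {c : ℝ} (hc : 0 < c) (z v : ℝ) (hv : 0 ≤ v) :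
    ∫ x in Ioi (0:ℝ), exp (-x) * F (z - v + c * x) =
      (∫ x in Ioc (0:ℝ) (v/c), exp (-x) * F (z - v + c * x)) +
      exp (-(v/c)) * ∫ x in Ioi (0:ℝ), exp (-x) * F (z + c * x) := by
  have hη : 0 ≤ v / c := by positivity
  have hint := integrableOn_expF hm h0 h1 (fun x => z - v + c * x) (by fun_prop)
  rw [← Ioc_union_Ioi_eq_Ioi hη, setIntegral_union (Ioc_disjoint_Ioi le_rfl) measurableSet_Ioi
    (hint.mono_set Ioc_subset_Ioi_self) (hint.mono_set (Ioi_subset_Ioi hη)), shift_Ioi, ← integral_const_mul]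
  rw [Ioc_union_Ioi_eq_Ioi hη]
  congr 2
  ext x
  rw [← mul_assoc, ← exp_add]
  congr 2
  · ring
  · field_simp; ring

lemma conv_pos (hP : PF2 F) {c : ℝ} (hc : 0 < c) : PF2 (fun z => ∫ x in Ioi (0:ℝ), exp (-x) * F (z - c * x)) := by
  intro x y v hxy hv
  simp only
  set G : ℝ → ℝ := fun z => ∫ x in Ioi (0:ℝ), exp (-x) * F (z - c * x) with hG
  set A : ℝ → ℝ := fun z => ∫ x in Ioc (0:ℝ) (v/c), exp (-x) * F (z - c * x) with hA
  have hs : ∀ z, G z = A z + exp (-(v/c)) * G (z - v) := fun z => split_pos hm h0 h1 hc z v hv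
  change G (x - v) * G y ≤ G x * G (y - v)
  have step1 : ∀ r ∈ Ioc (0:ℝ) (v/c), F (y - c * r) * G (x - v) ≤ F (x - c * r) * G (y - v) := by
    intro r hr
    have hcr : c * r ≤ v := by
      have := hr.2; rw [le_div_iff₀ hc] at this; linarith
    simp only [hG]
    rw [← integral_const_mul, ← integral_const_mul]
    apply setIntegral_mono_on
    · exact (integrableOn_expF hm h0 h1 (fun s => x - v - c * s) (by fun_prop)).const_mul _
    · exact (integrableOn_expF hm h0 h1 (fun s => y - v - c * s) (by fun_prop)).const_mul _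
    · exact measurableSet_Ioi
    · intro s hs'
      simp only [mem_Ioi] at hs'
      have h3 : 0 < c * s := mul_pos hc hs'
      have := hP (x - c * r) (y - c * r) (v + c * s - c * r) (by linarith) (by linarith)
      have e1 : x - c * r - (v + c * s - c * r) = x - v - c * s := by ring
      have e2 : y - c * r - (v + c * s - c * r) = y - v - c * s := by ring
      rw [e1, e2] at this
      have h4 := exp_pos (-s)
      nlinarith
  have step2 : A y * G (x - v) ≤ A x * G (y - v) := by
    simp only [hA]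
    rw [← integral_mul_const, ← integral_mul_const]
    apply setIntegral_mono_on
    · exact ((integrableOn_expF hm h0 h1 (fun s => y - c * s) (by fun_prop)).mono_set Ioc_subset_Ioi_self).mul_const _
    · exact ((integrableOn_expF hm h0 h1 (fun s => x - c * s) (by fun_prop)).mono_set Ioc_subset_Ioi_self).mul_const _
    · exact measurableSet_Ioc
    · intro r hr
      have := step1 r hr
      have h4 := exp_pos (-r)
      nlinarith
  rw [hs x, hs y]
  nlinarith

lemma conv_neg (hP : PF2 F) {c : ℝ} (hc : 0 < c) : PF2 (fun z => ∫ x in Ioi (0:ℝ), exp (-x) * F (z + c * x)) := by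
  intro x y v hxy hv
  simp only
  set G : ℝ → ℝ := fun z => ∫ x in Ioi (0:ℝ), exp (-x) * F (z + c * x) with hG
  set A : ℝ → ℝ := fun z => ∫ x in Ioc (0:ℝ) (v/c), exp (-x) * F (z - v + c * x) with hA
  have hs : ∀ z, G (z - v) = A z + exp (-(v/c)) * G z := fun z => split_neg hm h0 h1 hc z v hv
  change G (x - v) * G y ≤ G x * G (y - v)
  have step1 : ∀ r ∈ Ioc (0:ℝ) (v/c), F (x - v + c * r) * G y ≤ F (y - v + c * r) * G x := by
    intro r hr
    have hcr : c * r ≤ v := by
      have := hr.2; rw [le_div_iff₀ hc] at this; linarith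
    simp only [hG]
    rw [← integral_const_mul, ← integral_const_mul]
    apply setIntegral_mono_on
    · exact (integrableOn_expF hm h0 h1 (fun s => y + c * s) (by fun_prop)).const_mul _
    · exact (integrableOn_expF hm h0 h1 (fun s => x + c * s) (by fun_prop)).const_mul _
    · exact measurableSet_Ioi
    · intro s hs'
      simp only [mem_Ioi] at hs'
      have h3 : 0 < c * s := mul_pos hc hs'
      have := hP (x + c * s) (y + c * s) (v + c * s - c * r) (by linarith) (by linarith)
      have e1 : x + c * s - (v + c * s - c * r) = x - v + c * r := by ring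
      have e2 : y + c * s - (v + c * s - c * r) = y - v + c * r := by ring
      rw [e1, e2] at this
      have h4 := exp_pos (-s)
      nlinarith
  have step2 : A x * G y ≤ A y * G x := by
    simp only [hA]
    rw [← integral_mul_const, ← integral_mul_const]
    apply setIntegral_mono_on
    · exact ((integrableOn_expF hm h0 h1 (fun s => x - v + c * s) (by fun_prop)).mono_set Ioc_subset_Ioi_self).mul_const _
    · exact ((integrableOn_expF hm h0 h1 (fun s => y - v + c * s) (by fun_prop)).mono_set Ioc_subset_Ioi_self).mul_const _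
    · exact measurableSet_Ioc
    · intro r hr
      have := step1 r hr
      have h4 := exp_pos (-r)
      nlinarith
  rw [hs x, hs y]
  nlinarith

lemma conv (hP : PF2 F) (b : ℝ) : PF2 (fun z => ∫ x, F (z - b * x) ∂nu) := by
  rcases lt_trichotomy b 0 with hb | hb | hb
  · have h := conv_neg hm h0 h1 hP (c := -b) (by linarith)
    have e : (fun z => ∫ x, F (z - b * x) ∂nu) = (fun z => ∫ x in Ioi (0:ℝ), exp (-x) * F (z + (-b) * x)) := by
      ext z
      rw [integral_nu]
      congr 1
      ext x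
      congr 2
      ring
    rw [e]; exact h
  · subst hb
    simpa using hP
  · have h := conv_pos hm h0 h1 hP (c := b) hb
    have e : (fun z => ∫ x, F (z - b * x) ∂nu) = (fun z => ∫ x in Ioi (0:ℝ), exp (-x) * F (z - b * x)) := by
      ext z
      rw [integral_nu]
    rw [e]; exact h

end conv

lemma Fb_PF2 {n : ℕ} (b : Fin n → ℝ) : PF2 (Fb b) := by
  induction n with
  | zero =>
    have : Fb b = Hv := by ext y; exact Fb_zero b y
    rw [this]; exact PF2_Hv
  | succ n ih =>
    have : Fb b = fun y => ∫ x, Fb (fun i => b i.succ) (y - b 0 * x) ∂nu := by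
      ext y; exact Fb_succ b y
    rw [this]
    exact conv (Fb_mono _).measurable (Fb_nonneg _) (Fb_le_one _) (ih _) (b 0)


/-- PF2 + monotone + positive gives the chord inequality for the logarithm -/
lemma chord_of_PF2 {F : ℝ → ℝ} (hP : PF2 F) (hmono : Monotone F) (hpos : ∀ y, 0 < F y)
    (x y z : ℝ) (hxy : x ≤ y) (hyz : y ≤ z) :
    (z - y) * log (F x) + (y - x) * log (F z) ≤ (z - x) * log (F y) := by
  set L : ℝ → ℝ := fun y => log (F y) with hL
  have hLP : ∀ x y v, x ≤ y → 0 ≤ v → L (x - v) + L y ≤ L x + L (y - v) := by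
    intro x y v h1 h2
    simp only [hL]
    rw [← Real.log_mul (hpos _).ne' (hpos _).ne', ← Real.log_mul (hpos _).ne' (hpos _).ne']
    exact Real.log_le_log (mul_pos (hpos _) (hpos _)) (hP x y v h1 h2)
  have hLm : Monotone L := fun a b hab => Real.log_le_log (hpos a) (hmono hab)
  change (z - y) * L x + (y - x) * L z ≤ (z - x) * L y
  rcases hyz.eq_or_lt with rfl | hyz'
  · simp
  -- right increments
  have hR : ∀ (h : ℝ), 0 ≤ h → ∀ k : ℕ, L (y + k * h) - L y ≤ k * (L (y + h) - L y) := by
    intro h hh k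
    induction k with
    | zero => simp
    | succ k ih =>
      have := hLP (y + h) (y + (k+1 : ℕ) * h) h (by push_cast; nlinarith [Nat.cast_nonneg (α := ℝ) k]) hh
      have e1 : y + h - h = y := by ring
      have e2 : y + (k+1 : ℕ) * h - h = y + k * h := by push_cast; ring
      rw [e1, e2] at this
      push_cast at this ⊢
      linarith
  have hLft : ∀ (h : ℝ), 0 ≤ h → ∀ m : ℕ, m * (L (y + h) - L y) ≤ L y - L (y - m * h) := by
    intro h hh m
    induction m with
    | zero => simp
    | succ m ih =>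
      have := hLP (y - m * h) (y + h) h (by nlinarith [Nat.cast_nonneg (α := ℝ) m]) hh
      have e1 : y - m * h - h = y - (m+1 : ℕ) * h := by push_cast; ring
      have e2 : y + h - h = y := by ring
      rw [e1, e2] at this
      push_cast at this ⊢
      linarith
  set r : ℝ := (y - x) / (z - y) with hr
  have hzy : 0 < z - y := by linarith
  have hr0 : 0 ≤ r := div_nonneg (by linarith) hzy.le
  have key : ∀ n : ℕ, 0 < n → (⌊r * n⌋₊ : ℝ) / n * L z + L x ≤ (1 + (⌊r * n⌋₊ : ℝ) / n) * L y := by
    intro n hn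
    have hn' : (0:ℝ) < n := by exact_mod_cast hn
    set h : ℝ := (z - y) / n with hh
    have hh0 : 0 ≤ h := by positivity
    set m : ℕ := ⌊r * n⌋₊ with hm
    have hmle : (m:ℝ) ≤ r * n := Nat.floor_le (by positivity)
    have hz : y + n * h = z := by rw [hh]; field_simp; ring
    have hx : x ≤ y - m * h := by
      have : m * h ≤ (r * n) * h := mul_le_mul_of_nonneg_right hmle hh0
      have e : (r * n) * h = y - x := by rw [hr, hh]; field_simp
      linarith
    have a1 := hR h hh0 n
    rw [hz] at a1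
    have a2 := hLft h hh0 m
    have a3 := hLm hx
    have a4 : (m:ℝ) * (L z - L y) ≤ n * (L y - L x) := by
      have b1 : (m:ℝ) * (L z - L y) ≤ m * (n * (L (y+h) - L y)) := mul_le_mul_of_nonneg_left a1 (Nat.cast_nonneg m)
      have b2 : (n:ℝ) * (m * (L (y+h) - L y)) ≤ n * (L y - L x) := mul_le_mul_of_nonneg_left (a2.trans (by linarith)) hn'.le
      linarith
    have a5 : (m:ℝ)/n * (L z - L y) ≤ L y - L x := by
      rw [div_mul_eq_mul_div, div_le_iff₀ hn']
      linarith
    linarith
  have hlim : Tendsto (fun n : ℕ => (⌊r * n⌋₊ : ℝ) / n) atTop (𝓝 r) :=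
    (tendsto_nat_floor_mul_div_atTop hr0).comp tendsto_natCast_atTop_atTop
  have h1 : Tendsto (fun n : ℕ => (⌊r * n⌋₊ : ℝ) / n * L z + L x) atTop (𝓝 (r * L z + L x)) :=
    (hlim.mul_const _).add_const _
  have h2 : Tendsto (fun n : ℕ => (1 + (⌊r * n⌋₊ : ℝ) / n) * L y) atTop (𝓝 ((1 + r) * L y)) :=
    (hlim.const_add 1).mul_const _
  have h3 : r * L z + L x ≤ (1 + r) * L y := by
    apply le_of_tendsto_of_tendsto h1 h2
    filter_upwards [eventually_gt_atTop 0] with n hn using key n hn
  have e1 : (z - y) * (r * L z + L x) = (y - x) * L z + (z - y) * L x := by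
    rw [hr]; field_simp
  have e2 : (z - y) * ((1 + r) * L y) = (z - x) * L y := by
    rw [hr]; field_simp; ring
  have h4 := mul_le_mul_of_nonneg_left h3 hzy.le
  rw [e1, e2] at h4
  linarith

/-- `∫ (Hv (y-c) - Hv y) dy = -c` for all real `c` -/
lemma Hv_shift_eq_neg (c : ℝ) (hc : c < 0) : (fun y => Hv (y - c) - Hv y) = (Ico c 0).indicator (fun _ => (1:ℝ)) := by
  ext y
  simp only [Hv, indicator, mem_Ico, sub_nonneg]
  by_cases h : 0 ≤ y <;> by_cases h' : c ≤ y
  · simp [h, h', not_lt.mpr h]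
  · exfalso; exact h' (hc.le.trans h)
  · simp [h, h', not_le.mp h]
  · simp [h, h']

lemma integrable_Hv_shift' (c : ℝ) : Integrable (fun y => Hv (y - c) - Hv y) := by
  rcases le_or_gt 0 c with h | h
  · exact integrable_Hv_shift h
  · rw [Hv_shift_eq_neg c h]
    apply IntegrableOn.integrable_indicator _ measurableSet_Ico
    simp

lemma integral_Hv_shift' (c : ℝ) : ∫ y, (Hv (y - c) - Hv y) = -c := by
  rcases le_or_gt 0 c with h | h
  · exact integral_Hv_shift h
  · rw [Hv_shift_eq_neg c h, integral_indicator measurableSet_Ico]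
    simp [h.le]

lemma integral_norm_Hv_shift' (c : ℝ) : ∫ y, ‖Hv (y - c) - Hv y‖ = |c| := by
  rcases le_or_gt 0 c with h | h
  · have : (fun y => ‖Hv (y - c) - Hv y‖) = (Ico (0:ℝ) c).indicator (fun _ => (1:ℝ)) := by
      ext y
      have := congrFun (Hv_shift_eq c h) y
      rw [this]
      simp only [indicator]
      split_ifs <;> simp
    rw [this, integral_indicator measurableSet_Ico]
    simp [h, abs_of_nonneg h]
  · have : (fun y => ‖Hv (y - c) - Hv y‖) = (Ico c (0:ℝ)).indicator (fun _ => (1:ℝ)) := by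
      ext y
      have := congrFun (Hv_shift_eq_neg c h) y
      rw [this]
      simp only [indicator]
      split_ifs <;> simp
    rw [this, integral_indicator measurableSet_Ico]
    simp [h.le, abs_of_neg h]

lemma integrable_id_nu : Integrable (fun x : ℝ => x) nu := by
  unfold nu
  rw [integrable_withDensity_iff (by fun_prop) (Eventually.of_forall fun _ => ENNReal.ofReal_lt_top)]
  refine integrable_wexp.congr (Eventually.of_forall ?_)
  intro x
  simp only
  rw [ENNReal.toReal_ofReal (exp_pos _).le]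

lemma integral_id_nu : ∫ x : ℝ, x ∂nu = 1 := by
  rw [integral_nu]
  have : ∀ x ∈ Ioi (0:ℝ), exp (-x) * x = x ^ ((2:ℝ) - 1) * exp (-(1 * x)) := by
    intro x _
    norm_num
    ring
  rw [setIntegral_congr_fun measurableSet_Ioi this, Real.integral_rpow_mul_exp_neg_mul_Ioi (by norm_num) (by norm_num)]
  simp [Real.Gamma_two]

lemma integrable_lin {n : ℕ} (b : Fin n → ℝ) : Integrable (fun x : Fin n → ℝ => ∑ i, b i * x i) (nuN n) := by
  apply integrable_finsetSum
  intro i _
  unfold nuN
  exact (integrable_comp_eval (μ := fun _ : Fin n => nu) (i := i) integrable_id_nu).const_mul _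

lemma integral_lin {n : ℕ} (b : Fin n → ℝ) : ∫ x, (∑ i, b i * x i) ∂(nuN n) = ∑ i, b i := by
  unfold nuN
  rw [integral_finsetSum]
  · apply Finset.sum_congr rfl
    intro i _
    rw [integral_const_mul, integral_comp_eval (μ := fun _ : Fin n => nu) (i := i) (f := fun x => x)
      integrable_id_nu.aestronglyMeasurable, integral_id_nu, mul_one]
  · intro i _
    exact (integrable_comp_eval (μ := fun _ : Fin n => nu) (i := i) integrable_id_nu).const_mul _


end Crest.Agent.S0423
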