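import Mathlib
import Crest.Agent.S0423h.Prob

set_option autoImplicit false
open MeasureTheory Set Filter Topology Real
open scoped ENNReal

namespace Crest.Agent.S0423

lemma meas_prod_Hv {n : ℕ} (b : Fin n → ℝ) : Measurable (fun p : (Fin n → ℝ) × ℝ => Hv (p.2 - ∑ i, b i * p.1 i) - Hv p.2) :=
    (Hv_measurable.comp (by fun_prop)).sub (Hv_measurable.comp (by fun_prop))

lemma integrable_prod_Hv {n : ℕ} (b : Fin n → ℝ) :
    Integrable (fun p : (Fin n → ℝ) × ℝ => Hv (p.2 - ∑ i, b i * p.1 i) - Hv p.2) ((nuN n).prod volume) := by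
  have h1 : ∀ᵐ x ∂(nuN n), Integrable (fun y : ℝ => Hv (y - ∑ i, b i * x i) - Hv y) volume :=
    Eventually.of_forall fun x => integrable_Hv_shift' _
  have h2 : Integrable (fun x : Fin n → ℝ => ∫ y : ℝ, ‖Hv (y - ∑ i, b i * x i) - Hv y‖) (nuN n) := by
    simp_rw [integral_norm_Hv_shift']
    exact (integrable_lin b).abs
  exact (integrable_prod_iff (meas_prod_Hv b).aestronglyMeasurable).mpr ⟨h1, h2⟩


lemma Fb_sub_Hv {n : ℕ} (b : Fin n → ℝ) (y : ℝ) :
    Fb b y - Hv y = ∫ x, (Hv (y - ∑ i, b i * x i) - Hv y) ∂(nuN n) := by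
  rw [integral_sub (integrable_Hv _ _ (by fun_prop)) (integrable_const _)]
  simp [Fb]

lemma integrable_Fb_sub {n : ℕ} (b : Fin n → ℝ) : Integrable (fun y => Fb b y - Hv y) := by
  have := (integrable_prod_Hv b).integral_prod_right
  refine this.congr (Eventually.of_forall ?_)
  intro y
  exact (Fb_sub_Hv b y).symm

lemma integral_Fb_sub {n : ℕ} (b : Fin n → ℝ) : ∫ y, (Fb b y - Hv y) = -∑ i, b i := by
  have h1 : ∫ y, (Fb b y - Hv y) = ∫ y, ∫ x, (Hv (y - ∑ i, b i * x i) - Hv y) ∂(nuN n) := by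
    congr 1; ext y; exact Fb_sub_Hv b y
  have h2 := integral_integral_swap (μ := nuN n) (ν := (volume : Measure ℝ))
    (f := fun (x : Fin n → ℝ) (y : ℝ) => Hv (y - ∑ i, b i * x i) - Hv y) (integrable_prod_Hv b)
  rw [h1, ← h2]
  simp_rw [integral_Hv_shift']
  rw [integral_neg, integral_lin]

lemma Fb_tendsto {n : ℕ} (b : Fin n → ℝ) : Tendsto (Fb b) atTop (𝓝 1) := by
  have h : Tendsto (Fb b) atTop (𝓝 (∫ _x : Fin n → ℝ, (1:ℝ) ∂(nuN n))) := by
    unfold Fb
    apply tendsto_integral_filter_of_dominated_convergence (fun _ => (1:ℝ))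
    · exact Eventually.of_forall fun y => (integrable_Hv _ _ (by fun_prop)).aestronglyMeasurable
    · refine Eventually.of_forall fun y => Eventually.of_forall fun x => ?_
      rw [Real.norm_of_nonneg (Hv_nonneg _)]
      exact Hv_le_one _
    · exact integrable_const _
    · refine Eventually.of_forall fun x => ?_
      apply tendsto_const_nhds.congr'
      filter_upwards [eventually_ge_atTop (∑ i, b i * x i)] with y hy
      unfold Hv
      rw [if_pos (by linarith)]
  simpa using h

lemma Fb_pos {n : ℕ} (b : Fin n → ℝ) (hb : ∃ i, b i < 0) (y : ℝ) : 0 < Fb b y := by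
  obtain ⟨j, hj⟩ := hb
  unfold Fb
  rw [integral_pos_iff_support_of_nonneg (fun _ => Hv_nonneg _) (integrable_Hv _ _ (by fun_prop))]
  set U : Set (Fin n → ℝ) := {x | ∑ i, b i * x i < y} ∩ Set.pi univ (fun _ => Ioi (0:ℝ)) with hU
  have hopen : IsOpen U := by
    apply IsOpen.inter
    · exact isOpen_lt (by fun_prop) continuous_const
    · exact isOpen_set_pi finite_univ (fun _ _ => isOpen_Ioi)
  have hne : U.Nonempty := by
    set C : ℝ := ∑ i ∈ Finset.univ.erase j, b i with hC
    set R : ℝ := (|C - y| + 1) / (-(b j)) with hR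
    have hRpos : 0 < R := by
      apply div_pos (by positivity); linarith
    refine ⟨fun i => if i = j then R else 1, ?_, ?_⟩
    · simp only [mem_ofPred_eq]
      rw [← Finset.add_sum_erase _ _ (Finset.mem_univ j)]
      rw [if_pos rfl]
      have h1 : ∑ x ∈ Finset.univ.erase j, b x * (if x = j then R else 1) = C := by
        rw [hC]
        apply Finset.sum_congr rfl
        intro i hi
        rw [if_neg (Finset.ne_of_mem_erase hi), mul_one]
      rw [h1]
      have h2 : b j * R = -(|C - y| + 1) := by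
        have hj' : b j ≠ 0 := hj.ne
        rw [hR]; field_simp
      rw [h2]
      have := le_abs_self (C - y)
      linarith
    · intro i _
      simp only [mem_Ioi]
      split_ifs
      · exact hRpos
      · norm_num
  have hUsub : U ⊆ Function.support (fun x : Fin n → ℝ => Hv (y - ∑ i, b i * x i)) := by
    rintro x ⟨hx1, _⟩
    simp only [mem_ofPred_eq] at hx1
    rw [Function.mem_support]
    unfold Hv
    rw [if_pos (by linarith)]
    norm_num
  refine lt_of_lt_of_le ?_ (measure_mono hUsub)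
  rw [pos_iff_ne_zero]
  intro h0
  rw [nuN_eq, withDensity_apply_eq_zero (by fun_prop)] at h0
  have h3 : {x : Fin n → ℝ | ENNReal.ofReal (exp (-∑ i, x i)) ≠ 0} ∩ U = U := by
    apply inter_eq_right.mpr
    intro x _
    simp only [mem_ofPred_eq, ne_eq, ENNReal.ofReal_eq_zero, not_le]
    exact exp_pos _
  rw [h3, Measure.restrict_apply hopen.measurableSet] at h0
  have h4 : U ∩ Set.pi univ (fun _ => Ioi (0:ℝ)) = U := by
    apply inter_eq_left.mpr
    exact inter_subset_right
  rw [h4] at h0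
  exact (hopen.measure_pos volume hne).ne' h0

lemma Fb_LC {n : ℕ} (b : Fin n → ℝ) (hb : ∃ i, b i < 0) (hsum : ∑ i, b i = 0) : LC (Fb b) where
  mono := Fb_mono b
  pos := Fb_pos b hb
  le_one := Fb_le_one b
  lim := Fb_tendsto b
  chord := fun x y z h1 h2 => chord_of_PF2 (Fb_PF2 b) (Fb_mono b) (Fb_pos b hb) x y z h1 h2
  int := integrable_Fb_sub b
  zero := by rw [integral_Fb_sub, hsum, neg_zero]

/-- copy of the weight -/
noncomputable def g (y : ℝ) : ℝ := if y ≤ 0 then 1 else (1 + y) * Real.exp (-y)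

lemma integral_kf_Hv (c : ℝ) : ∫ y, kf y * Hv (y - c) = 1 - g (4/3 - c) := by
  rw [integral_kf_mul]
  unfold g
  split_ifs with h
  · rw [sub_self]
    apply setIntegral_eq_zero_of_forall_eq_zero
    intro w hw
    simp only [mem_Ioi] at hw
    unfold Hv
    rw [if_neg (by linarith), mul_zero]
  · push Not at h
    set u := 4/3 - c with hu
    have h1 : ∀ w ∈ Ioi (0:ℝ), w * exp (-w) * Hv (4/3 - w - c) = (Ioc 0 u).indicator (fun w => w * exp (-w)) w := by
      intro w hw
      simp only [mem_Ioi] at hw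
      simp only [indicator, mem_Ioc, Hv]
      by_cases h2 : w ≤ u
      · rw [if_pos (by linarith), if_pos ⟨hw, h2⟩, mul_one]
      · rw [if_neg (by linarith), if_neg (fun h3 => h2 h3.2), mul_zero]
    rw [setIntegral_congr_fun measurableSet_Ioi h1, setIntegral_indicator measurableSet_Ioc]
    have h3 : Ioi (0:ℝ) ∩ Ioc 0 u = Ioc 0 u := by
      apply inter_eq_right.mpr
      intro x hx; exact hx.1
    rw [h3, ← intervalIntegral.integral_of_le h.le]
    have h2 : ∀ x ∈ uIcc 0 u, HasDerivAt (fun w : ℝ => -(1 + w) * exp (-w)) (x * exp (-x)) x := by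
      intro x _
      have h3 : HasDerivAt (fun w : ℝ => -(1 + w)) (-1) x :=
        HasDerivAt.fun_neg ((hasDerivAt_id' x).const_add 1)
      have h4 : HasDerivAt (fun w : ℝ => exp (-w)) (exp (-x) * (-1)) x := (hasDerivAt_neg x).exp
      convert! h3.mul h4 using 1
      ring
    rw [intervalIntegral.integral_eq_sub_of_hasDerivAt h2]
    · simp; ring
    · apply Continuous.intervalIntegrable; fun_prop

lemma g_nonneg (y : ℝ) : 0 ≤ g y := by
  unfold g; split_ifs with h
  · norm_num
  · push Not at h; positivity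

lemma g_le_one (y : ℝ) : g y ≤ 1 := by
  unfold g; split_ifs with h
  · exact le_rfl
  · rw [exp_neg, ← div_eq_mul_inv, div_le_one (exp_pos _)]
    have := Real.add_one_le_exp y
    linarith

lemma g_measurable : Measurable g := by
  unfold g
  exact Measurable.ite measurableSet_Iic measurable_const (by fun_prop)

lemma integrable_prod_kf {n : ℕ} (b : Fin n → ℝ) :
    Integrable (fun p : (Fin n → ℝ) × ℝ => kf p.2 * Hv (p.2 - ∑ i, b i * p.1 i)) ((nuN n).prod volume) := by
  have h0 : Integrable (fun p : (Fin n → ℝ) × ℝ => (1:ℝ) * kf p.2) ((nuN n).prod volume) :=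
    (integrable_const (1:ℝ)).mul_prod kf_integrable
  refine Integrable.mono' h0 ?_ (Eventually.of_forall ?_)
  · apply Measurable.aestronglyMeasurable
    exact (kf_measurable.comp measurable_snd).mul (Hv_measurable.comp (by fun_prop))
  · intro p
    have h1 := kf_nonneg p.2
    have h2 := Hv_nonneg (p.2 - ∑ i, b i * p.1 i)
    have h3 := Hv_le_one (p.2 - ∑ i, b i * p.1 i)
    rw [Real.norm_of_nonneg (mul_nonneg h1 h2)]
    nlinarith

lemma integral_kf_Fb {n : ℕ} (b : Fin n → ℝ) :
    ∫ y, kf y * Fb b y = 1 - ∫ x, g (4/3 - ∑ i, b i * x i) ∂(nuN n) := by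
  have h2 := integral_integral_swap (μ := nuN n) (ν := (volume : Measure ℝ))
    (f := fun (x : Fin n → ℝ) (y : ℝ) => kf y * Hv (y - ∑ i, b i * x i)) (integrable_prod_kf b)
  have h1 : ∫ y, kf y * Fb b y = ∫ y, ∫ x, kf y * Hv (y - ∑ i, b i * x i) ∂(nuN n) := by
    congr 1; ext y
    rw [integral_const_mul]
    rfl
  rw [h1, ← h2]
  simp_rw [integral_kf_Hv]
  rw [integral_sub (integrable_const _)]
  · simp
  · refine Integrable.mono' (integrable_const (1:ℝ)) (g_measurable.comp (by fun_prop)).aestronglyMeasurable (Eventually.of_forall ?_)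
    intro x
    rw [Real.norm_of_nonneg (g_nonneg _)]
    exact g_le_one _

theorem upper {n : ℕ} (a : Fin n → ℝ) (hsum : ∑ i, a i = 0) :
    ∫ x, g (4/3 + ∑ i, a i * x i) ∂(nuN n) ≤ 1 - 4/9 * exp (-1/3) := by
  by_cases h : ∃ i, 0 < a i
  · have hb : ∃ i, (fun i => - a i) i < 0 := by
      obtain ⟨i, hi⟩ := h; exact ⟨i, by simpa using hi⟩
    have hs : ∑ i, (fun i => - a i) i = 0 := by simp [hsum]
    have h1 := (Fb_LC _ hb hs).main
    rw [integral_kf_Fb] at h1
    have h2 : ∀ x : Fin n → ℝ, 4/3 - ∑ i, (-a i) * x i = 4/3 + ∑ i, a i * x i := by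
      intro x
      simp
    simp_rw [h2] at h1
    linarith
  · push Not at h
    have h0 : ∀ i, a i = 0 := by
      intro i
      exact (Finset.sum_eq_zero_iff_of_nonpos (fun i _ => h i)).mp hsum i (Finset.mem_univ i)
    simp_rw [h0, zero_mul, Finset.sum_const_zero, add_zero]
    simp only [integral_const, probReal_univ, smul_eq_mul, one_mul]
    unfold g
    rw [if_neg (by norm_num)]
    have e1 : exp (-(4/3:ℝ)) ≤ 7/25 := by
      have := Real.sum_le_exp_of_nonneg (x := 4/3) (by norm_num) 4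
      simp only [Finset.sum_range_succ, Finset.sum_range_zero, Nat.factorial] at this
      norm_num at this
      rw [exp_neg, inv_le_comm₀ (exp_pos _) (by norm_num)]
      linarith
    have e2 : exp (-1/3) ≤ 18/25 := by
      have h8 : (25/18:ℝ) ≤ exp (1/3) := by
        have := Real.sum_le_exp_of_nonneg (x := 1/3) (by norm_num) 4
        simp only [Finset.sum_range_succ, Finset.sum_range_zero, Nat.factorial] at this
        norm_num at this
        linarith
      have h9 : exp (-1/3) = (exp (1/3))⁻¹ := by rw [← exp_neg]; norm_num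
      rw [h9, inv_le_comm₀ (exp_pos _) (by norm_num)]
      norm_num at h8 ⊢
      exact h8
    nlinarith


lemma g_lip (y z : ℝ) : |g y - g z| ≤ |y - z| := by
  -- g is 1-Lipschitz and antitone
  have hanti : ∀ y z : ℝ, y ≤ z → g z ≤ g y := by
    intro y z hyz
    have h1 := integral_kf_Hv (4/3 - y)
    have h2 := integral_kf_Hv (4/3 - z)
    have e1 : 4/3 - (4/3 - y) = y := by ring
    have e2 : 4/3 - (4/3 - z) = z := by ring
    rw [e1] at h1; rw [e2] at h2
    have h3 : ∫ w, kf w * Hv (w - (4/3 - y)) ≤ ∫ w, kf w * Hv (w - (4/3 - z)) := by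
      apply integral_mono
      · exact integrable_kf_mul (Hv_measurable.comp (by fun_prop)) (fun _ => Hv_nonneg _) (fun _ => Hv_le_one _)
      · exact integrable_kf_mul (Hv_measurable.comp (by fun_prop)) (fun _ => Hv_nonneg _) (fun _ => Hv_le_one _)
      · intro w
        exact mul_le_mul_of_nonneg_left (Hv_mono (by linarith)) (kf_nonneg w)
    linarith
  have hl : ∀ y z : ℝ, y ≤ z → g y - g z ≤ z - y := by
    intro y z hyz
    have hcase : ∀ y z : ℝ, 0 ≤ y → y ≤ z → g y - g z ≤ z - y := by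
      intro y z hy hyz
      have gform : ∀ t : ℝ, 0 ≤ t → g t = (1 + t) * exp (-t) := by
        intro t ht
        unfold g
        split_ifs with h
        · have : t = 0 := le_antisymm h ht
          subst this; simp
        · rfl
      rw [gform y hy, gform z (hy.trans hyz)]
      have hE : exp (-z) = exp (-y) * exp (-(z-y)) := by rw [← exp_add]; ring_nf
      have h1 : 1 - (z - y) ≤ exp (-(z-y)) := by
        have := Real.add_one_le_exp (-(z-y)); linarith
      have h2 : exp (-y) ≤ 1 := by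
        rw [Real.exp_le_one_iff]; linarith
      have h2' := exp_pos (-y)
      have h3 : exp (-y) * (1 + y) ≤ 1 := by
        have := Real.add_one_le_exp y
        have e : exp (-y) * exp y = 1 := by rw [← exp_add]; simp
        nlinarith
      rw [hE]
      -- (1+y) e^{-y} - (1+z) e^{-y} e^{-(z-y)} ≤ (1+y)e^{-y} (1 - e^{-(z-y)}) ≤ z - y
      have h4 : 0 ≤ (z - y) * (exp (-y) * exp (-(z-y))) := by
        apply mul_nonneg (by linarith); positivity
      have h5 : (1 + y) * exp (-y) * (1 - exp (-(z-y))) ≤ z - y := by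
        have h6 : 0 ≤ (1 + y) * exp (-y) := by positivity
        have h7 : 1 - exp (-(z-y)) ≤ z - y := by linarith
        have h8 : (1 + y) * exp (-y) * (1 - exp (-(z-y))) ≤ (1 + y) * exp (-y) * (z - y) := mul_le_mul_of_nonneg_left h7 h6
        have h9 : (1 + y) * exp (-y) * (z - y) ≤ 1 * (z - y) := mul_le_mul_of_nonneg_right (by linarith) (by linarith)
        linarith
      nlinarith
    rcases le_or_gt 0 y with h0 | h0
    · exact hcase y z h0 hyz
    · have e1 : g y = g 0 := by
        unfold g; rw [if_pos h0.le, if_pos le_rfl]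
      rcases le_or_gt 0 z with hz | hz
      · have := hcase 0 z le_rfl hz
        rw [e1]; linarith
      · have e2 : g z = g 0 := by
          unfold g; rw [if_pos hz.le, if_pos le_rfl]
        rw [e1, e2]; linarith
  rcases le_total y z with h | h
  · rw [abs_of_nonneg (by linarith [hanti y z h]), abs_of_nonpos (by linarith)]
    linarith [hl y z h]
  · rw [abs_of_nonpos (by linarith [hanti z y h]), abs_of_nonneg (by linarith)]
    linarith [hl z y h]

lemma integral_g_one : ∫ x, g (-(2/3) + 2 * x) ∂nu = 1 - 4/9 * exp (-1/3) := by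
  rw [integral_nu]
  have hint : IntegrableOn (fun x => exp (-x) * g (-(2/3) + 2 * x)) (Ioi 0) :=
    integrableOn_expF g_measurable g_nonneg g_le_one _ (by fun_prop)
  have h3 : (0:ℝ) ≤ 1/3 := by norm_num
  rw [← Ioc_union_Ioi_eq_Ioi h3, setIntegral_union (Ioc_disjoint_Ioi le_rfl) measurableSet_Ioi
    (hint.mono_set Ioc_subset_Ioi_self) (hint.mono_set (Ioi_subset_Ioi h3))]
  have hA : ∫ x in Ioc (0:ℝ) (1/3), exp (-x) * g (-(2/3) + 2 * x) = 1 - exp (-1/3) := by
    have h1 : ∀ w ∈ Ioc (0:ℝ) (1/3), exp (-w) * g (-(2/3) + 2 * w) = exp (-w) := by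
      intro w hw
      unfold g
      rw [if_pos (by linarith [hw.2]), mul_one]
    rw [setIntegral_congr_fun measurableSet_Ioc h1, ← intervalIntegral.integral_of_le h3]
    have h2 : ∀ x ∈ uIcc (0:ℝ) (1/3), HasDerivAt (fun w : ℝ => - exp (-w)) (exp (-x)) x := by
      intro x _
      have h4 : HasDerivAt (fun w : ℝ => exp (-w)) (exp (-x) * (-1)) x := (hasDerivAt_neg x).exp
      convert! HasDerivAt.fun_neg h4 using 1
      ring
    rw [intervalIntegral.integral_eq_sub_of_hasDerivAt h2]
    · simp; ring_nf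
    · apply Continuous.intervalIntegrable; fun_prop
  have hB : ∫ x in Ioi (1/3:ℝ), exp (-x) * g (-(2/3) + 2 * x) = 5/9 * exp (-1/3) := by
    have h1 : ∀ w ∈ Ioi (1/3:ℝ), exp (-w) * g (-(2/3) + 2 * w) = (1/3 + 2 * w) * exp (2/3 - 3 * w) := by
      intro w hw
      simp only [mem_Ioi] at hw
      unfold g
      rw [if_neg (by linarith)]
      have : exp (2/3 - 3 * w) = exp (-w) * exp (-(-(2/3) + 2 * w)) := by
        rw [← exp_add]; ring_nf
      rw [this]; ring
    rw [setIntegral_congr_fun measurableSet_Ioi h1]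
    have h2 : ∀ x ∈ Ioi (1/3:ℝ), HasDerivAt (fun w : ℝ => -(1/3 + 2/3 * w) * exp (2/3 - 3 * w)) ((1/3 + 2 * x) * exp (2/3 - 3 * x)) x := by
      intro x _
      have h3 : HasDerivAt (fun w : ℝ => -(1/3 + 2/3 * w)) (-(2/3 * 1)) x :=
        HasDerivAt.fun_neg (((hasDerivAt_id' x).const_mul (2/3)).const_add (1/3))
      have h5 : HasDerivAt (fun w : ℝ => 2/3 - 3 * w) (-(3 * 1)) x :=
        ((hasDerivAt_id' x).const_mul 3).const_sub (2/3)
      convert! h3.mul h5.exp using 1
      ring
    have hcont : ContinuousWithinAt (fun w : ℝ => -(1/3 + 2/3 * w) * exp (2/3 - 3 * w)) (Ici (1/3)) (1/3) := by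
      apply Continuous.continuousWithinAt; fun_prop
    have hlim : Tendsto (fun w : ℝ => -(1/3 + 2/3 * w) * exp (2/3 - 3 * w)) atTop (𝓝 0) := by
      have t1 : Tendsto (fun w : ℝ => w ^ 1 * exp (-w)) atTop (𝓝 0) := Real.tendsto_pow_mul_exp_neg_atTop_nhds_zero 1
      have t0 : Tendsto (fun w : ℝ => exp (-w)) atTop (𝓝 0) := Real.tendsto_exp_neg_atTop_nhds_zero
      have tl : Tendsto (fun w : ℝ => 3 * w) atTop atTop := tendsto_id.const_mul_atTop (by norm_num)
      have t1' := (t1.comp tl).const_mul (-(exp (2/3) * 2/9))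
      have t0' := (t0.comp tl).const_mul (-(exp (2/3) * 1/3))
      have := t1'.add t0'
      simp only [Function.comp_apply, mul_zero, add_zero, pow_one] at this
      refine this.congr (fun w => ?_)
      have h6 : exp (2/3 - 3 * w) = exp (2/3) * exp (-(3 * w)) := by
        rw [← exp_add]; ring_nf
      rw [h6]
      ring
    have hpos : ∀ x ∈ Ioi (1/3:ℝ), 0 ≤ (1/3 + 2 * x) * exp (2/3 - 3 * x) := by
      intro x hx
      have : 0 < x := lt_trans (by norm_num) hx
      positivity
    rw [integral_Ioi_of_hasDerivAt_of_nonneg hcont h2 hpos hlim]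
    have e : exp (2/3 - 3 * (1/3:ℝ)) = exp (-1/3) := by norm_num
    rw [e]; ring
  rw [hA, hB]; ring

lemma memLp_id_nu : MemLp (fun x : ℝ => x) 2 nu := by
  rw [memLp_two_iff_integrable_sq (by fun_prop)]
  unfold nu
  rw [integrable_withDensity_iff (by fun_prop) (Eventually.of_forall fun _ => ENNReal.ofReal_lt_top)]
  have := Real.GammaIntegral_convergent (s := 3) (by norm_num)
  refine this.congr_fun ?_ measurableSet_Ioi
  intro x hx
  simp only [mem_Ioi] at hx
  simp only
  rw [ENNReal.toReal_ofReal (exp_pos _).le]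
  have : (3:ℝ) - 1 = (2:ℕ) := by norm_num
  rw [this, rpow_natCast]
  ring

lemma variance_lin {n : ℕ} (c : Fin n → ℝ) :
    ∫ x, (∑ i, c i * x i - ∑ i, c i) ^ 2 ∂(nuN n) = (∑ i, c i ^ 2) * ProbabilityTheory.variance (fun x : ℝ => x) nu := by
  have h1 := ProbabilityTheory.variance_sum_pi (μ := fun _ : Fin n => nu) (X := fun i (x : ℝ) => c i * x)
    (fun i => memLp_id_nu.const_mul (c i))
  have h2 : (∑ i, fun ω : Fin n → ℝ => c i * ω i) = fun ω => ∑ i, c i * ω i := by
    ext ω; simp
  rw [h2, ProbabilityTheory.variance_eq_integral (Measurable.aemeasurable (by fun_prop))] at h1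
  have h3 : (∫ x, ∑ i, c i * x i ∂(Measure.pi fun _ : Fin n => nu)) = ∑ i, c i := integral_lin c
  rw [h3] at h1
  unfold nuN
  rw [h1, Finset.sum_mul]
  apply Finset.sum_congr rfl
  intro i _
  rw [ProbabilityTheory.variance_const_mul]

lemma exists_lower (δ : ℝ) (hδ : 0 < δ) : ∃ (N : ℕ) (a : Fin N → ℝ), 1 ≤ N ∧ ∑ i, a i = 0 ∧
    1 - 4/9 * exp (-1/3) - δ < ∫ x, g (4/3 + ∑ i, a i * x i) ∂(nuN N) := by
  set V := ProbabilityTheory.variance (fun x : ℝ => x) nu with hV
  have hV0 : 0 ≤ V := ProbabilityTheory.variance_nonneg _ _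
  obtain ⟨m, hm⟩ := exists_nat_gt (4 * V / δ ^ 2 + 1)
  have hm1 : (1:ℝ) < m := by
    have : 0 ≤ 4 * V / δ ^ 2 := by positivity
    linarith
  have hm0 : (0:ℝ) < m := by linarith
  set c : Fin (m+1) → ℝ := Fin.cons 0 (fun _ => 2 / (m:ℝ)) with hc
  set a : Fin (m+1) → ℝ := Fin.cons 2 (fun _ => -(2 / (m:ℝ))) with ha
  have hcs : ∑ i, c i = 2 := by
    rw [Fin.sum_univ_succ, hc]
    simp
    field_simp
  have hc2 : ∑ i, c i ^ 2 = 4 / m := by
    rw [Fin.sum_univ_succ, hc]
    simp
    field_simp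
    norm_num
  have hax : ∀ x : Fin (m+1) → ℝ, ∑ i, a i * x i = 2 * x 0 - ∑ i, c i * x i := by
    intro x
    rw [Fin.sum_univ_succ, Fin.sum_univ_succ, ha, hc]
    simp [Finset.sum_neg_distrib]
    ring
  refine ⟨m+1, a, by omega, ?_, ?_⟩
  · rw [Fin.sum_univ_succ, ha]
    simp
    field_simp
    ring
  · have hlow : ∀ x : Fin (m+1) → ℝ, g (-(2/3) + 2 * x 0) - (δ/2 + (∑ i, c i * x i - ∑ i, c i)^2 / (2 * δ)) ≤ g (4/3 + ∑ i, a i * x i) := by
      intro x
      rw [hax, hcs]
      set W := ∑ i, c i * x i - 2 with hW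
      have h1 := g_lip (-(2/3) + 2 * x 0) (4/3 + (2 * x 0 - ∑ i, c i * x i))
      have h2 : -(2/3) + 2 * x 0 - (4/3 + (2 * x 0 - ∑ i, c i * x i)) = W := by rw [hW]; ring
      rw [h2] at h1
      have h3 : |W| ≤ δ/2 + W^2 / (2 * δ) := by
        have h4 : 0 ≤ (|W| - δ)^2 := sq_nonneg _
        have h5 : |W|^2 = W^2 := sq_abs W
        have h6 : δ/2 + W^2/(2*δ) - |W| = (|W| - δ)^2 / (2*δ) := by
          rw [← h5]; field_simp; ring
        have h7 : 0 ≤ (|W| - δ)^2 / (2*δ) := by positivity
        linarith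
      have h8 := le_abs_self (g (-(2/3) + 2 * x 0) - g (4/3 + (2 * x 0 - ∑ i, c i * x i)))
      linarith
    have hi1 : Integrable (fun x : Fin (m+1) → ℝ => g (-(2/3) + 2 * x 0)) (nuN (m+1)) := by
      refine Integrable.mono' (integrable_const (1:ℝ)) (g_measurable.comp (by fun_prop)).aestronglyMeasurable (Eventually.of_forall ?_)
      intro x
      rw [Real.norm_of_nonneg (g_nonneg _)]
      exact g_le_one _
    have hi2 : Integrable (fun x : Fin (m+1) → ℝ => g (4/3 + ∑ i, a i * x i)) (nuN (m+1)) := by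
      refine Integrable.mono' (integrable_const (1:ℝ)) (g_measurable.comp (by fun_prop)).aestronglyMeasurable (Eventually.of_forall ?_)
      intro x
      rw [Real.norm_of_nonneg (g_nonneg _)]
      exact g_le_one _
    have hi3 : Integrable (fun x : Fin (m+1) → ℝ => (∑ i, c i * x i - ∑ i, c i)^2) (nuN (m+1)) := by
      have hml : MemLp (fun x : Fin (m+1) → ℝ => ∑ i, c i * x i - ∑ i, c i) 2 (nuN (m+1)) := by
        apply MemLp.sub
        · apply memLp_finsetSum
          intro i _
          apply MemLp.const_mul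
          unfold nuN
          exact memLp_id_nu.comp_measurePreserving (measurePreserving_eval (fun _ : Fin (m+1) => nu) i)
        · exact memLp_const _
      exact hml.integrable_sq
    have hi4 : Integrable (fun x : Fin (m+1) → ℝ => δ/2 + (∑ i, c i * x i - ∑ i, c i)^2 / (2*δ)) (nuN (m+1)) :=
      (integrable_const _).add (hi3.div_const _)
    have hmono := integral_mono (hi1.sub hi4) hi2 hlow
    have e1 : ∫ x : Fin (m+1) → ℝ, g (-(2/3) + 2 * x 0) ∂(nuN (m+1)) = 1 - 4/9 * exp (-1/3) := by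
      unfold nuN
      rw [integral_comp_eval (μ := fun _ : Fin (m+1) => nu) (i := 0) (f := fun x => g (-(2/3) + 2 * x))
        (g_measurable.comp (by fun_prop)).aestronglyMeasurable, integral_g_one]
    have e2 : ∫ x : Fin (m+1) → ℝ, (δ/2 + (∑ i, c i * x i - ∑ i, c i)^2 / (2*δ)) ∂(nuN (m+1)) = δ/2 + (4/m * V) / (2*δ) := by
      rw [integral_add (integrable_const _) (hi3.div_const _), integral_div (2*δ), variance_lin, hc2]
      simp [hV]
    rw [integral_sub' hi1 hi4, e1, e2] at hmono
    have h9 : (4/m * V) / (2*δ) < δ/2 := by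
      rw [div_lt_div_iff₀ (by positivity) (by norm_num)]
      have h10 : 4 * V / δ^2 < m := by linarith
      rw [div_lt_iff₀ (by positivity)] at h10
      have h11 : 4 / (m:ℝ) * V * 2 = (4 * V) * 2 / m := by ring
      rw [h11, div_lt_iff₀ hm0]
      nlinarith
    linarith

end Crest.Agent.S0423
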